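import Vale.Agent.Lib.P064.Log.Defs

/-!
# P064 / Log: basic facts on `tch`, `bdry`, `wt`, `Ext`
-/

namespace Vale.Agent.Lib.P064.Log

open SimpleGraph

variable {W V : Type} [Fintype W] [DecidableEq W] [Fintype V] [DecidableEq V]

theorem mem_tch (F : SimpleGraph W) (S Y : Finset W) (e : Sym2 W) :
    e ∈ tch F S Y ↔ e ∈ F.edgeSet ∧ (∀ a ∈ e, a ∈ S) ∧ ∃ a ∈ e, a ∈ Y := by
  simp [tch]

theorem mk_mem_tch (F : SimpleGraph W) (S Y : Finset W) (a b : W) :
    s(a, b) ∈ tch F S Y ↔ F.Adj a b ∧ (a ∈ S ∧ b ∈ S) ∧ (a ∈ Y ∨ b ∈ Y) := by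
  rw [mem_tch]
  simp [Sym2.mem_iff]

theorem mem_bdry (F : SimpleGraph W) (S P : Finset W) (y : W) :
    y ∈ bdry F S P ↔ (y ∈ S ∧ y ∉ P) ∧ ∃ x ∈ P, F.Adj y x := by
  simp [bdry]

theorem mem_ext (F : SimpleGraph W) (H : SimpleGraph V) (S P : Finset W) (ρ φ : W → V) :
    φ ∈ Ext F H S P ρ ↔ IsEmb F H S φ ∧ ∀ x, x ∉ P → φ x = ρ x := by
  simp [Ext]

theorem tch_mono_right (F : SimpleGraph W) (S : Finset W) {Y Y' : Finset W} (h : Y ⊆ Y') :
    tch F S Y ⊆ tch F S Y' := by
  intro e he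
  rw [mem_tch] at he ⊢
  obtain ⟨h1, h2, a, ha, haY⟩ := he
  exact ⟨h1, h2, a, ha, h haY⟩

theorem tch_empty (F : SimpleGraph W) (S : Finset W) : tch F S ∅ = ∅ := by
  ext e
  rw [mem_tch]
  simp

/-- an edge inside `S` either touches `Y` or lies inside `S \ Y` -/
theorem card_tch_split (F : SimpleGraph W) (S Y : Finset W) :
    (tch F S S).card = (tch F (S \ Y) (S \ Y)).card + (tch F S Y).card := by
  have hd : Disjoint (tch F (S \ Y) (S \ Y)) (tch F S Y) := by
    rw [Finset.disjoint_left]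
    intro e
    induction e using Sym2.ind with
    | _ a b =>
      rw [mk_mem_tch, mk_mem_tch]
      simp only [Finset.mem_sdiff]
      tauto
  rw [← Finset.card_union_of_disjoint hd]
  apply congrArg
  ext e
  induction e using Sym2.ind with
  | _ a b =>
    rw [Finset.mem_union, mk_mem_tch, mk_mem_tch, mk_mem_tch]
    simp only [Finset.mem_sdiff]
    tauto

theorem wt_split (F : SimpleGraph W) (N Q : ℝ) (S Y : Finset W) (h : Y ⊆ S) :
    wt F N Q S = wt F N Q (S \ Y) * (N ^ Y.card * Q ^ (tch F S Y).card) := by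
  have h1 : S.card = (S \ Y).card + Y.card := (Finset.card_sdiff_add_card_eq_card h).symm
  unfold wt
  rw [card_tch_split F S Y, h1, pow_add, pow_add]
  ring

theorem wt_pos (F : SimpleGraph W) {N Q : ℝ} (hN : 0 < N) (hQ : 0 < Q) (T : Finset W) :
    0 < wt F N Q T := by
  unfold wt
  positivity

theorem wt_empty (F : SimpleGraph W) (N Q : ℝ) : wt F N Q ∅ = 1 := by
  unfold wt
  rw [tch_empty]
  simp

theorem card_tch_univ (F : SimpleGraph W) :
    (tch F Finset.univ Finset.univ).card = Nat.card F.edgeSet := by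
  refine (Nat.subtype_card _ (fun e => ?_)).symm
  induction e using Sym2.ind with
  | _ a b =>
    rw [mk_mem_tch]
    simp

/-- the edge `yz` with `z ∈ P`, `y ∈ S \ P` touches `P` but not `P.erase z` -/
theorem card_tch_erase_lt (F : SimpleGraph W) (S P : Finset W) (y z : W) (hz : z ∈ P) (hzS : z ∈ S)
    (hy : y ∈ S) (hyP : y ∉ P) (h : F.Adj y z) :
    (tch F S (P.erase z)).card + 1 ≤ (tch F S P).card := by
  apply Nat.succ_le_of_lt
  apply Finset.card_lt_card
  rw [Finset.ssubset_iff_of_subset (tch_mono_right F S (Finset.erase_subset z P))]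
  refine ⟨s(y, z), ?_, ?_⟩
  · rw [mk_mem_tch]
    exact ⟨h, ⟨hy, hzS⟩, Or.inr hz⟩
  · rw [mk_mem_tch]
    rintro ⟨-, -, h1 | h1⟩
    · exact hyP (Finset.mem_of_mem_erase h1)
    · exact (Finset.notMem_erase z P) h1

/-- every boundary vertex sends an edge to `P`, and an edge that touches `P` has at most one endpoint
outside `P` -/
theorem card_bdry_le (F : SimpleGraph W) (S P : Finset W) (hPS : P ⊆ S) :
    (bdry F S P).card ≤ (tch F S P).card := by
  classical
  have hch : ∀ y : W, ∃ x : W, y ∈ bdry F S P → (x ∈ P ∧ F.Adj y x) := by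
    intro y
    by_cases hy : y ∈ bdry F S P
    · obtain ⟨x, hx, hxy⟩ := ((mem_bdry F S P y).1 hy).2
      exact ⟨x, fun _ => ⟨hx, hxy⟩⟩
    · exact ⟨y, fun h => absurd h hy⟩
  choose f hf using hch
  apply Finset.card_le_card_of_injOn (fun y => s(y, f y))
  · intro y hy
    have hy' : y ∈ bdry F S P := hy
    have h1 := hf y hy'
    have h2 := (mem_bdry F S P y).1 hy'
    show s(y, f y) ∈ tch F S P
    rw [mk_mem_tch]
    exact ⟨h1.2, ⟨h2.1.1, hPS h1.1⟩, Or.inr h1.1⟩
  · intro y hy y' hy' heq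
    have hy1 : y ∈ bdry F S P := hy
    have hy2 : y' ∈ bdry F S P := hy'
    have heq' : s(y, f y) = s(y', f y') := heq
    rw [Sym2.eq_iff] at heq'
    rcases heq' with ⟨h1, -⟩ | ⟨h1, -⟩
    · exact h1
    · exfalso
      have h2 := (mem_bdry F S P y).1 hy1
      exact h2.1.2 (h1 ▸ (hf y' hy2).1)

theorem rigid_mono (F : SimpleGraph W) (N Q : ℝ) (S : Finset W) {P P' : Finset W} (h : P' ⊆ P)
    (hr : Rigid F N Q S P) : Rigid F N Q S P' :=
  fun Y hY => hr Y (hY.trans h)

theorem isEmb_mono (F : SimpleGraph W) (H : SimpleGraph V) {S S' : Finset W} (h : S' ⊆ S)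
    {φ : W → V} (hφ : IsEmb F H S φ) : IsEmb F H S' φ :=
  ⟨hφ.1.mono (by exact_mod_cast h), fun a ha b hb hab => hφ.2 a (h ha) b (h hb) hab⟩

theorem ext_empty_subset (F : SimpleGraph W) (H : SimpleGraph V) (S : Finset W) (ρ : W → V) :
    Ext F H S ∅ ρ ⊆ {ρ} := by
  intro φ hφ
  rw [mem_ext] at hφ
  rw [Finset.mem_singleton]
  funext x
  exact hφ.2 x (Finset.notMem_empty x)

/-- fixing the value at one more vertex -/
theorem mem_ext_erase (F : SimpleGraph W) (H : SimpleGraph V) (S P : Finset W) (ρ φ : W → V)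
    (hφ : φ ∈ Ext F H S P ρ) (x : W) :
    φ ∈ Ext F H S (P.erase x) (Function.update ρ x (φ x)) := by
  rw [mem_ext] at hφ ⊢
  refine ⟨hφ.1, fun x' hx' => ?_⟩
  by_cases hxx : x' = x
  · subst hxx
    simp
  · rw [Function.update_of_ne hxx]
    apply hφ.2
    intro hP
    exact hx' (Finset.mem_erase.2 ⟨hxx, hP⟩)

/-- if `φ x` takes at most `|B|` values on `Ext F H S P ρ` and each value has at most `M` extensions -/
theorem card_ext_le_of_values (F : SimpleGraph W) (H : SimpleGraph V) (S P : Finset W)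
    (ρ : W → V) (x : W) (B : Finset V) (hB : ∀ φ ∈ Ext F H S P ρ, φ x ∈ B) (M : ℕ)
    (hM : ∀ ρ', (Ext F H S (P.erase x) ρ').card ≤ M) :
    (Ext F H S P ρ).card ≤ B.card * M := by
  classical
  have hsub : Ext F H S P ρ ⊆ B.biUnion fun v => Ext F H S (P.erase x) (Function.update ρ x v) := by
    intro φ hφ
    rw [Finset.mem_biUnion]
    exact ⟨φ x, hB φ hφ, mem_ext_erase F H S P ρ φ hφ x⟩
  exact (Finset.card_le_card hsub).trans (Finset.card_biUnion_le_card_mul _ _ _ fun v _ => hM _)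

/-- first extend to `S \ P''`, then to `S` -/
theorem ext_subset_biUnion (F : SimpleGraph W) (H : SimpleGraph V) (S P' P'' : Finset W)
    (ρ : W → V) :
    Ext F H S (P' ∪ P'') ρ ⊆ (Ext F H (S \ P'') P' ρ).biUnion fun φ' => Ext F H S P'' φ' := by
  intro φ hφ
  rw [mem_ext] at hφ
  rw [Finset.mem_biUnion]
  refine ⟨fun x => if x ∈ P'' then ρ x else φ x, ?_, ?_⟩
  · rw [mem_ext]
    refine ⟨⟨?_, ?_⟩, ?_⟩
    · intro a ha b hb hab
      have ha' := Finset.mem_sdiff.1 (Finset.mem_coe.1 ha)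
      have hb' := Finset.mem_sdiff.1 (Finset.mem_coe.1 hb)
      simp only [if_neg ha'.2, if_neg hb'.2] at hab
      exact hφ.1.1 (Finset.mem_coe.2 ha'.1) (Finset.mem_coe.2 hb'.1) hab
    · intro a ha b hb hab
      have ha' := Finset.mem_sdiff.1 ha
      have hb' := Finset.mem_sdiff.1 hb
      simp only [if_neg ha'.2, if_neg hb'.2]
      exact hφ.1.2 a ha'.1 b hb'.1 hab
    · intro x hx
      by_cases hx2 : x ∈ P''
      · simp only [if_pos hx2]
      · simp only [if_neg hx2]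
        apply hφ.2
        rw [Finset.mem_union]
        tauto
  · rw [mem_ext]
    refine ⟨hφ.1, fun x hx => ?_⟩
    simp only [if_neg hx]

/-- labelled copies are the embeddings of `F[univ]` -/
theorem card_copy_eq_card_ext (F : SimpleGraph W) (H : SimpleGraph V) (ρ : W → V) :
    Nat.card (Copy F H) = (Ext F H Finset.univ Finset.univ ρ).card := by
  have e : Copy F H ≃ {φ // φ ∈ Ext F H Finset.univ Finset.univ ρ} :=
    { toFun := fun c => ⟨c.toHom, by
        rw [mem_ext]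
        exact ⟨⟨c.injective'.injOn, fun a _ b _ h => c.toHom.map_adj h⟩,
          fun x hx => absurd (Finset.mem_univ x) hx⟩⟩
      invFun := fun φ => ⟨⟨φ.1, fun {a b} h =>
          ((mem_ext F H _ _ ρ φ.1).1 φ.2).1.2 a (Finset.mem_univ a) b (Finset.mem_univ b) h⟩,
        fun a b hab => ((mem_ext F H _ _ ρ φ.1).1 φ.2).1.1 (by simp) (by simp) hab⟩
      left_inv := fun c => rfl
      right_inv := fun φ => rfl }
  rw [Nat.card_congr e]
  simp

end Vale.Agent.Lib.P064.Log
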