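import Vale.Agent.Lib.P064.Log.Piece

/-!
# P064 / Log: the chain of primitive pieces
-/

namespace Vale.Agent.Lib.P064.Log

open SimpleGraph

variable {W V : Type} [Fintype W] [DecidableEq W] [Fintype V] [DecidableEq V]

/-- by the expectation hypothesis the empty set has minimum weight -/
theorem floor_empty (F : SimpleGraph W) (H : SimpleGraph V) (n : ℕ) (hn : 1 ≤ n) (q : ℝ)
    (hq0 : 0 < q) (hq4 : 4 * q ≤ 1) (hyp : HypE n q H) (φ : W → V)
    (hφ : IsEmb F H Finset.univ φ) : Floor F n (4 * q) ∅ := by
  intro T _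
  rw [wt_empty]
  have hinj : Function.Injective φ := by
    intro a b hab
    exact hφ.1 (by simp) (by simp) hab
  have h := half_le_weight H n q hq0.le (by linarith) hyp (T.image φ)
    ((tch F T T).image (Sym2.map φ)) (by
      intro e he
      rw [Finset.mem_image] at he
      obtain ⟨g, hg, rfl⟩ := he
      induction g using Sym2.ind with
      | _ a b =>
        rw [mk_mem_tch] at hg
        refine ⟨?_, ?_⟩
        · simpa using hφ.2 a (by simp) b (by simp) hg.1
        · intro c hc
          simp only [Sym2.map_mk, Sym2.mem_iff] at hc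
          rcases hc with rfl | rfl
          · exact Finset.mem_image_of_mem _ hg.2.1.1
          · exact Finset.mem_image_of_mem _ hg.2.1.2)
  rw [Finset.card_image_of_injective _ hinj,
    Finset.card_image_of_injective _ (Sym2.map.injective hinj)] at h
  unfold wt
  have hn1 : (1 : ℝ) ≤ (n : ℝ) := by exact_mod_cast hn
  rcases Nat.eq_zero_or_pos (tch F T T).card with h0 | h0
  · rw [h0, pow_zero, mul_one]
    exact one_le_pow₀ hn1
  · rw [mul_pow]
    have h4 : (4 : ℝ) ≤ 4 ^ (tch F T T).card := by
      calc (4 : ℝ) = 4 ^ 1 := by norm_num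
        _ ≤ _ := pow_le_pow_right₀ (by norm_num) h0
    have h5 : 0 ≤ (n : ℝ) ^ T.card * q ^ (tch F T T).card := by positivity
    calc (1 : ℝ) ≤ 4 * (1 / 2) := by norm_num
      _ ≤ 4 ^ (tch F T T).card * ((n : ℝ) ^ T.card * q ^ (tch F T T).card) :=
          mul_le_mul h4 h (by norm_num) (by positivity)
      _ = _ := by ring

theorem chain_bound (F : SimpleGraph W) (H : SimpleGraph V) (n : ℕ) (hn : 2 ≤ n) (q : ℝ)
    (hq0 : 0 < q) (hq4 : 4 * q ≤ 1) (hyp : HypE n q H) (m : ℕ) :
    ∀ R : Finset W, (Finset.univ \ R).card = m → Floor F n (4 * q) R → ∀ ρ : W → V,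
      ((Ext F H Finset.univ (Finset.univ \ R) ρ).card : ℝ) *
          wt F (8 * (n : ℝ)) (8 * ((Nat.log 2 (2 * n) : ℝ) + 1) * q) R ≤
        wt F (8 * (n : ℝ)) (8 * ((Nat.log 2 (2 * n) : ℝ) + 1) * q) Finset.univ := by
  induction m using Nat.strong_induction_on with
  | _ m ih =>
    intro R hm hfl ρ
    have hnpos : (0 : ℝ) < (n : ℝ) := by
      have : 0 < n := by omega
      exact_mod_cast this
    have hN : (0 : ℝ) < 8 * (n : ℝ) := by positivity
    have hQ : (0 : ℝ) < 8 * ((Nat.log 2 (2 * n) : ℝ) + 1) * q := by positivity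
    set w' := wt F (8 * (n : ℝ)) (8 * ((Nat.log 2 (2 * n) : ℝ) + 1) * q) with hw'
    have hw'pos : ∀ T, 0 < w' T := fun T => wt_pos F hN hQ T
    by_cases hR : R = Finset.univ
    · subst hR
      have h1 : (Ext F H Finset.univ (Finset.univ \ Finset.univ) ρ).card ≤ 1 := by
        rw [Finset.sdiff_self]
        exact (Finset.card_le_card (ext_empty_subset F H Finset.univ ρ)).trans (by simp)
      have h2 : ((Ext F H Finset.univ (Finset.univ \ Finset.univ) ρ).card : ℝ) ≤ 1 := by
        exact_mod_cast h1
      calc _ ≤ 1 * w' Finset.univ := mul_le_mul_of_nonneg_right h2 (hw'pos _).le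
        _ = _ := one_mul _
    · have hRss : R ⊂ Finset.univ := Finset.ssubset_univ_iff.mpr hR
      obtain ⟨S, hS, hSmin⟩ := Finset.exists_min_image
        (Finset.univ.filter fun T : Finset W => R ⊂ T) (wt F n (4 * q))
        ⟨Finset.univ, by simp [hRss]⟩
      have hRS : R ⊂ S := by simpa using hS
      have hmin : ∀ T, R ⊂ T → wt F n (4 * q) S ≤ wt F n (4 * q) T := fun T hT =>
        hSmin T (by simp [hT])
      have hflS : Floor F n (4 * q) S := fun T hT => hmin T (hRS.trans_subset hT)
      have hpiece := piece_bound F H n hn q hq0 hq4 hyp R S hRS (hfl S hRS.subset)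
        (fun T hT _ => hmin T hT) ρ
      have hlt : (Finset.univ \ S).card < m := by
        rw [← hm]
        apply Finset.card_lt_card
        obtain ⟨x, hxS, hxR⟩ := Finset.exists_of_ssubset hRS
        refine Finset.ssubset_iff_of_subset
          (Finset.sdiff_subset_sdiff (Finset.Subset.refl _) hRS.subset) |>.mpr ⟨x, ?_, ?_⟩
        · simp [hxR]
        · simp [hxS]
      have hIH := ih _ hlt S rfl hflS
      have hsub := ext_subset_biUnion F H Finset.univ (S \ R) (Finset.univ \ S) ρ
      have e1 : S \ R ∪ (Finset.univ \ S) = Finset.univ \ R := by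
        ext x
        simp only [Finset.mem_union, Finset.mem_sdiff, Finset.mem_univ, true_and]
        constructor
        · rintro (h | h)
          · exact h.2
          · exact fun hx => h (hRS.subset hx)
        · intro h
          by_cases hx : x ∈ S
          · exact Or.inl ⟨hx, h⟩
          · exact Or.inr hx
      have e2 : Finset.univ \ (Finset.univ \ S) = S := by
        ext x
        simp
      rw [e1, e2] at hsub
      have hcard : ((Ext F H Finset.univ (Finset.univ \ R) ρ).card : ℝ) ≤
          ∑ φ' ∈ Ext F H S (S \ R) ρ, ((Ext F H Finset.univ (Finset.univ \ S) φ').card : ℝ) := by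
        have := (Finset.card_le_card hsub).trans Finset.card_biUnion_le
        exact_mod_cast this
      have hsum : ∑ φ' ∈ Ext F H S (S \ R) ρ,
          ((Ext F H Finset.univ (Finset.univ \ S) φ').card : ℝ) ≤
          (Ext F H S (S \ R) ρ).card * (w' Finset.univ / w' S) := by
        rw [← nsmul_eq_mul]
        apply Finset.sum_le_card_nsmul
        intro φ' _
        rw [le_div_iff₀ (hw'pos S)]
        exact hIH φ'
      calc ((Ext F H Finset.univ (Finset.univ \ R) ρ).card : ℝ) * w' R
          ≤ ((Ext F H S (S \ R) ρ).card * (w' Finset.univ / w' S)) * w' R :=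
            mul_le_mul_of_nonneg_right (hcard.trans hsum) (hw'pos R).le
        _ = ((Ext F H S (S \ R) ρ).card * w' R) * (w' Finset.univ / w' S) := by ring
        _ ≤ w' S * (w' Finset.univ / w' S) :=
            mul_le_mul_of_nonneg_right hpiece (div_pos (hw'pos _) (hw'pos _)).le
        _ = w' Finset.univ := by
            field_simp [(hw'pos S).ne']

/-- the main counting bound -/
theorem card_copy_le_log (F : SimpleGraph W) (H : SimpleGraph V) (n : ℕ) (hn : 2 ≤ n) (q : ℝ)
    (hq0 : 0 < q) (hq4 : 4 * q ≤ 1) (hyp : HypE n q H) :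
    (Nat.card (Copy F H) : ℝ) ≤ (8 * (n : ℝ)) ^ Fintype.card W *
      (8 * ((Nat.log 2 (2 * n) : ℝ) + 1) * q) ^ Nat.card F.edgeSet := by
  by_cases hne : Nonempty (Copy F H)
  · obtain ⟨f⟩ := hne
    have hφ : IsEmb F H Finset.univ f :=
      ⟨f.injective.injOn, fun a _ b _ hab => f.toHom.map_adj hab⟩
    have hfl := floor_empty F H n (by omega) q hq0 hq4 hyp f hφ
    have h := chain_bound F H n hn q hq0 hq4 hyp _ ∅ rfl hfl f
    rw [wt_empty, mul_one, Finset.sdiff_empty, ← card_copy_eq_card_ext] at h
    unfold wt at h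
    rwa [card_tch_univ, Finset.card_univ] at h
  · rw [not_nonempty_iff] at hne
    rw [Nat.card_of_isEmpty]
    have : (0 : ℝ) ≤ (Nat.log 2 (2 * n) : ℝ) := Nat.cast_nonneg _
    simp only [Nat.cast_zero]
    positivity

end Vale.Agent.Lib.P064.Log
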