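import Vale.Agent.Lib.P064.Log.Final

/-!
# P064 / Log: the spread constant is `O(log n)`
-/

namespace Vale.Agent.Lib.P064.Log

theorem log_two_mul_le (n : ℕ) (hn : 2 ≤ n) :
    ((Nat.log 2 (2 * n) : ℝ) + 1) * Real.log 2 ≤ 3 * Real.log n := by
  have h1 : 2 ^ Nat.log 2 (2 * n) ≤ 2 * n := Nat.pow_log_le_self 2 (by omega)
  have h2 : (2 : ℝ) ^ Nat.log 2 (2 * n) ≤ 2 * (n : ℝ) := by exact_mod_cast h1
  have hn0 : (0 : ℝ) < n := by
    have : 0 < n := by omega
    exact_mod_cast this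
  have h3 := Real.log_le_log (by positivity) h2
  rw [Real.log_pow, Real.log_mul (by norm_num) hn0.ne'] at h3
  have h4 : Real.log 2 ≤ Real.log n := by
    apply Real.log_le_log (by norm_num)
    exact_mod_cast hn
  linarith

theorem logConst_le (n : ℕ) (hn : 2 ≤ n) : logConst n ≤ 16400 * Real.log n := by
  have h1 := log_two_mul_le n hn
  have hl2 : (0.6931471803 : ℝ) < Real.log 2 := Real.log_two_gt_d9
  have he : Real.exp 1 ≤ 2.7182818286 := Real.exp_one_lt_d9.le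
  have he2 : Real.exp 1 ^ 2 ≤ 2.7182818286 ^ 2 := pow_le_pow_left₀ (Real.exp_pos 1).le he 2
  have he3 : Real.exp 1 ^ 2 ≤ 7.3890561 := he2.trans (by norm_num)
  have hlogn : 0 ≤ Real.log n := Real.log_natCast_nonneg n
  set ℓ : ℝ := (Nat.log 2 (2 * n) : ℝ) + 1 with hℓ
  have hℓ0 : 0 ≤ ℓ := by positivity
  have h2 : ℓ ≤ 4.3281 * Real.log n := by nlinarith
  unfold logConst
  rw [← hℓ]
  calc 512 * Real.exp 1 ^ 2 * ℓ ≤ 512 * 7.3890561 * (4.3281 * Real.log n) := by gcongr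
    _ ≤ 16400 * Real.log n := by nlinarith

end Vale.Agent.Lib.P064.Log
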