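import Vale.Agent.Lib.P064.ConnectedBound

/-!
# P064 / Log: definitions for the proof of `p̃_E = O(p_E log n)`

`F` is the pattern (vertex type `W`), `H` the host (vertex type `V`). All maps are total functions
`W → V`; an embedding of `F[S]` is a map which is injective on `S` and maps the edges of `F` inside `S`
to edges of `H`. `Ext F H S P ρ` is the set of the embeddings of `F[S]` that agree with `ρ` outside `P`
(think of `P ⊆ S`, the roots being `S \ P`).
-/

namespace Vale.Agent.Lib.P064.Log

open SimpleGraph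

variable {W V : Type} [Fintype W] [DecidableEq W] [Fintype V] [DecidableEq V]

/-- `φ` embeds `F[S]` in `H` -/
def IsEmb (F : SimpleGraph W) (H : SimpleGraph V) (S : Finset W) (φ : W → V) : Prop :=
  Set.InjOn φ S ∧ ∀ a ∈ S, ∀ b ∈ S, F.Adj a b → H.Adj (φ a) (φ b)

open scoped Classical in
/-- the embeddings of `F[S]` in `H` which agree with `ρ` outside `P` -/
noncomputable def Ext (F : SimpleGraph W) (H : SimpleGraph V) (S P : Finset W) (ρ : W → V) :
    Finset (W → V) :=
  Finset.univ.filter fun φ => IsEmb F H S φ ∧ ∀ x, x ∉ P → φ x = ρ x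

open scoped Classical in
/-- the edges of `F` inside `S` that touch `Y` -/
noncomputable def tch (F : SimpleGraph W) (S Y : Finset W) : Finset (Sym2 W) :=
  Finset.univ.filter fun e => e ∈ F.edgeSet ∧ (∀ a ∈ e, a ∈ S) ∧ ∃ a ∈ e, a ∈ Y

open scoped Classical in
/-- the vertices of `S \ P` with a neighbour in `P` -/
noncomputable def bdry (F : SimpleGraph W) (S P : Finset W) : Finset W :=
  (S \ P).filter fun y => ∃ x ∈ P, F.Adj y x

/-- the weight `N^{|T|} Q^{e(F[T])}` of a vertex set `T` -/
noncomputable def wt (F : SimpleGraph W) (N Q : ℝ) (T : Finset W) : ℝ :=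
  N ^ T.card * Q ^ (tch F T T).card

/-- `(S \ P, S)` is rigid at `(N,Q)`: every `Y ⊆ P` has `N^{|Y|} Q^{e_S(Y)} ≤ 1`, where `e_S(Y)` is the
number of the edges inside `S` that touch `Y` -/
def Rigid (F : SimpleGraph W) (N Q : ℝ) (S P : Finset W) : Prop :=
  ∀ Y, Y ⊆ P → N ^ Y.card * Q ^ (tch F S Y).card ≤ 1

/-- `R` has minimum weight among its supersets -/
def Floor (F : SimpleGraph W) (N Q : ℝ) (R : Finset W) : Prop :=
  ∀ T, R ⊆ T → wt F N Q R ≤ wt F N Q T

end Vale.Agent.Lib.P064.Log
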