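import Vale.Agent.Lib.P064.Log.Chain
import Vale.Agent.Lib.P064.Graph.Spread

/-!
# P064 / Log: the copies of `H` are `O(q log n)`-spread
-/

namespace Vale.Agent.Lib.P064.Log

open SimpleGraph

variable {W V : Type}

theorem card_le_two_mul_card_edgeSet [Fintype W] (F : SimpleGraph W)
    (hF : ∀ w, ∃ w', F.Adj w w') : Fintype.card W ≤ 2 * Nat.card F.edgeSet := by
  classical
  have h1 := F.sum_degrees_eq_twice_card_edges
  have h2 : ∑ _w : W, 1 ≤ ∑ w : W, F.degree w := by
    apply Finset.sum_le_sum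
    intro w _
    exact (F.degree_pos_iff_exists_adj w).mpr (hF w)
  rw [h1] at h2
  rw [Nat.card_eq_fintype_card, ← SimpleGraph.edgeFinset_card]
  simpa using h2

/-- the spread constant: `512 e² (⌊log₂ (2n)⌋ + 1)` -/
noncomputable def logConst (n : ℕ) : ℝ := 512 * Real.exp 1 ^ 2 * ((Nat.log 2 (2 * n) : ℝ) + 1)

theorem logConst_pos (n : ℕ) : 0 < logConst n := by
  unfold logConst
  positivity

theorem four_le_logConst (n : ℕ) : 4 ≤ logConst n := by
  unfold logConst
  have h1 : (1 : ℝ) ≤ Real.exp 1 ^ 2 := one_le_pow₀ (Real.one_le_exp (by norm_num))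
  have h2 : (0 : ℝ) ≤ (Nat.log 2 (2 * n) : ℝ) := Nat.cast_nonneg _
  nlinarith

theorem card_copy_le_log_of_no_isolated [Fintype V] (H : SimpleGraph V) (n : ℕ) (hn : 2 ≤ n)
    (q : ℝ) (hq0 : 0 < q) (hyp : HypE n q H) (hP : logConst n * q ≤ 1) [Finite W]
    (F : SimpleGraph W) (hF : ∀ w, ∃ w', F.Adj w w') (hW : Nat.card W ≤ n) :
    (Nat.card (Copy F H) : ℝ) ≤
      (n.descFactorial (Nat.card W) : ℝ) * (logConst n * q) ^ Nat.card F.edgeSet := by
  classical
  have : Fintype W := Fintype.ofFinite W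
  have hq4 : 4 * q ≤ 1 := by
    have := four_le_logConst n
    nlinarith
  have h1 := card_copy_le_log F H n hn q hq0 hq4 hyp
  rw [Nat.card_eq_fintype_card (α := W)] at hW ⊢
  set v := Fintype.card W with hv
  set e := Nat.card F.edgeSet with he
  set ℓ : ℝ := (Nat.log 2 (2 * n) : ℝ) + 1 with hℓ
  have hℓ0 : 0 < ℓ := by positivity
  have h2 : v ≤ 2 * e := card_le_two_mul_card_edgeSet F hF
  have h3 := pow_le_exp_mul_descFactorial n v hW
  have h4 : (8 * Real.exp 1) ^ v ≤ (8 * Real.exp 1) ^ (2 * e) := by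
    apply pow_le_pow_right₀ _ h2
    have : (1 : ℝ) ≤ Real.exp 1 := Real.one_le_exp (by norm_num)
    linarith
  calc (Nat.card (Copy F H) : ℝ) ≤ (8 * (n : ℝ)) ^ v * (8 * ℓ * q) ^ e := h1
    _ = 8 ^ v * (n : ℝ) ^ v * (8 * ℓ * q) ^ e := by rw [mul_pow]
    _ ≤ 8 ^ v * (Real.exp 1 ^ v * (n.descFactorial v : ℝ)) * (8 * ℓ * q) ^ e := by gcongr
    _ = (8 * Real.exp 1) ^ v * ((n.descFactorial v : ℝ) * (8 * ℓ * q) ^ e) := by
        rw [mul_pow]; ring
    _ ≤ (8 * Real.exp 1) ^ (2 * e) * ((n.descFactorial v : ℝ) * (8 * ℓ * q) ^ e) := by gcongr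
    _ = (n.descFactorial v : ℝ) * (logConst n * q) ^ e := by
        have e1 : logConst n * q = (8 * Real.exp 1) ^ 2 * (8 * ℓ * q) := by
          unfold logConst
          rw [← hℓ]
          ring
        rw [e1, mul_pow ((8 * Real.exp 1) ^ 2), pow_mul]
        generalize ((8 * Real.exp 1) ^ 2) ^ e = a
        generalize (8 * ℓ * q) ^ e = b
        ring

/-- all patterns -/
theorem spread_log [Fintype V] (H : SimpleGraph V) (n : ℕ) (hn : 2 ≤ n)
    (hVn : Fintype.card V ≤ n) (q : ℝ) (hq0 : 0 < q) (hyp : HypE n q H)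
    (hP : logConst n * q ≤ 1) : Spread n (logConst n * q) H := by
  intro W _ F hW
  set P : ℝ := logConst n * q with hPdef
  have hP0 : 0 ≤ P := (mul_pos (logConst_pos n) hq0).le
  have hs : Nat.card F.support ≤ Nat.card W :=
    Nat.card_le_card_of_injective _ Subtype.val_injective
  have h1 := card_copy_le_induce_support F H
  have h2 := card_copy_le_log_of_no_isolated H n hn q hq0 hyp hP (F.induce F.support)
    (induce_support_no_isolated F) (hs.trans hW)
  have h3 : P ^ Nat.card (F.induce F.support).edgeSet ≤ P ^ Nat.card F.edgeSet :=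
    pow_le_pow_of_le_one hP0 hP (card_edgeSet_le_induce_support F)
  have h4 : (Fintype.card V - Nat.card F.support).descFactorial (Nat.card W - Nat.card F.support) ≤
      (n - Nat.card F.support).descFactorial (Nat.card W - Nat.card F.support) :=
    Nat.descFactorial_le _ (Nat.sub_le_sub_right hVn _)
  have h5 := Nat.descFactorial_mul_descFactorial (n := n) hs
  calc (Nat.card (Copy F H) : ℝ)
      ≤ (Nat.card (Copy (F.induce F.support) H) : ℝ) *
        ((Fintype.card V - Nat.card F.support).descFactorial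
          (Nat.card W - Nat.card F.support) : ℕ) := by exact_mod_cast h1
    _ ≤ ((n.descFactorial (Nat.card F.support) : ℝ) * P ^ Nat.card F.edgeSet) *
        ((n - Nat.card F.support).descFactorial (Nat.card W - Nat.card F.support) : ℕ) := by
        apply mul_le_mul (h2.trans (mul_le_mul_of_nonneg_left h3 (by positivity)))
          (by exact_mod_cast h4) (by positivity) (by positivity)
    _ = (((n - Nat.card F.support).descFactorial (Nat.card W - Nat.card F.support) *
          n.descFactorial (Nat.card F.support) : ℕ) : ℝ) * P ^ Nat.card F.edgeSet := by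
        push_cast; ring
    _ = _ := by rw [h5]

end Vale.Agent.Lib.P064.Log
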