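import Mathlib

/-!
# P064 / Log: the numerical inequality for one piece

Blueprint. Put `ℓ = Nat.log 2 (2n) + 1 ≥ 3`, `Λ = Nat.log 4 (2n) ≤ ℓ` (`Nat.log_anti_left`), `w = n^k (4q)^t ≥ 1`. Then
`n^k q^t = w / 4^t ≤ w` and the right side is `8^k (2ℓ)^t w`. The left side is at most `w (2e + 1 + ℓ d) k² Λ^(k-1)`, and
`k² ≤ 4^(k-1)`, `2e + 1 ≤ 8`.
If `d = 0`: `(2e+1) k² Λ^(k-1) ≤ 8 · 4^(k-1) ℓ^(k-1) ≤ 8^k (2ℓ)^t` because `k - 1 ≤ t`.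
If `d ≥ 1`: `2e + 1 + ℓ d ≤ 8 ℓ d`, and `8 ℓ d · 4^(k-1) ℓ^(k-1) ≤ 8^k · d · ℓ^k ≤ 8^k 2^t ℓ^t` because `d ≤ t < 2^t` and `k ≤ t`.
-/

namespace Vale.Agent.Lib.P064.Log

lemma sq_le_four_pow (j : ℕ) : ((j + 1 : ℕ) : ℝ) ^ 2 ≤ 4 ^ j := by
  have h : (j + 1) ^ 2 ≤ 4 ^ j := by
    induction j with
    | zero => norm_num
    | succ j ih =>
      calc (j + 1 + 1) ^ 2 ≤ (2 * (j + 1)) ^ 2 := Nat.pow_le_pow_left (by omega) 2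
        _ = 4 * (j + 1) ^ 2 := by ring
        _ ≤ 4 * 4 ^ j := Nat.mul_le_mul_left _ ih
        _ = 4 ^ (j + 1) := by ring
  exact_mod_cast h

/-- the combinatorial factor, in abstract form -/
lemma factor_bound (L Lam : ℝ) (hL : 3 ≤ L) (hLam0 : 0 ≤ Lam) (hLam : Lam ≤ L) (j t d : ℕ)
    (hjt : j ≤ t) (hd : 1 ≤ d → j + 1 ≤ t) (hdt : d ≤ t) :
    (8 + L * d) * ((j + 1 : ℕ) : ℝ) ^ 2 * Lam ^ j ≤ 8 ^ (j + 1) * (2 * L) ^ t := by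
  have hL0 : (0 : ℝ) ≤ L := by linarith
  have hL1 : (1 : ℝ) ≤ L := by linarith
  have h1 : ((j + 1 : ℕ) : ℝ) ^ 2 ≤ 4 ^ j := sq_le_four_pow j
  have h2 : Lam ^ j ≤ L ^ j := pow_le_pow_left₀ hLam0 hLam j
  have h48 : (4 : ℝ) ^ j ≤ 8 ^ j := pow_le_pow_left₀ (by norm_num) (by norm_num) j
  have hd0 : (0 : ℝ) ≤ d := Nat.cast_nonneg d
  have hA : (8 + L * d) * ((j + 1 : ℕ) : ℝ) ^ 2 * Lam ^ j ≤ (8 + L * d) * 8 ^ j * L ^ j := by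
    have hpos : 0 ≤ 8 + L * d := by positivity
    calc (8 + L * d) * ((j + 1 : ℕ) : ℝ) ^ 2 * Lam ^ j
        ≤ (8 + L * d) * 4 ^ j * L ^ j := by gcongr
      _ ≤ (8 + L * d) * 8 ^ j * L ^ j := by gcongr
  refine hA.trans ?_
  rcases Nat.eq_zero_or_pos d with hz | hpos
  · subst hz
    have h3 : L ^ j ≤ (2 * L) ^ t := by
      calc L ^ j ≤ (2 * L) ^ j := pow_le_pow_left₀ hL0 (by linarith) j
        _ ≤ (2 * L) ^ t := pow_le_pow_right₀ (by linarith) hjt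
    have : (8 + L * ((0 : ℕ) : ℝ)) * 8 ^ j * L ^ j = 8 ^ (j + 1) * L ^ j := by
      push_cast; ring
    rw [this]
    gcongr
  · have hjt' := hd hpos
    have hd1 : (1 : ℝ) ≤ d := by exact_mod_cast hpos
    have h4 : 8 + L * d ≤ 8 * (L * d) := by nlinarith
    have h5 : (d : ℝ) ≤ 2 ^ t := by
      have : d ≤ 2 ^ t := hdt.trans (Nat.lt_two_pow_self).le
      exact_mod_cast this
    have h6 : L ^ (j + 1) ≤ L ^ t := pow_le_pow_right₀ hL1 hjt'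
    calc (8 + L * d) * 8 ^ j * L ^ j ≤ 8 * (L * d) * 8 ^ j * L ^ j := by gcongr
      _ = 8 ^ (j + 1) * (d * L ^ (j + 1)) := by ring
      _ ≤ 8 ^ (j + 1) * (2 ^ t * L ^ t) := by gcongr
      _ = 8 ^ (j + 1) * (2 * L) ^ t := by rw [mul_pow]

theorem piece_numeric (n : ℕ) (hn : 2 ≤ n) (q : ℝ) (hq0 : 0 < q) (k t d : ℕ) (hk : 1 ≤ k)
    (hkt : k ≤ t + 1) (hd : 1 ≤ d → k ≤ t) (hdt : d ≤ t) (hw : 1 ≤ (n : ℝ) ^ k * (4 * q) ^ t) :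
    (2 * Real.exp 1 * ((n : ℝ) ^ k * q ^ t) + ((Nat.log 2 (2 * n) : ℝ) + 1) * d + 1) * (k : ℝ) ^ 2 *
        ((Nat.log 4 (2 * n) ^ (k - 1) : ℕ) : ℝ) ≤
      (8 * (n : ℝ)) ^ k * (8 * ((Nat.log 2 (2 * n) : ℝ) + 1) * q) ^ t := by
  obtain ⟨j, rfl⟩ : ∃ j, k = j + 1 := ⟨k - 1, by omega⟩
  have hlog2 : 2 ≤ Nat.log 2 (2 * n) := by
    have : Nat.log 2 (2 ^ 2) ≤ Nat.log 2 (2 * n) := Nat.log_mono_right (by omega)
    rwa [Nat.log_pow (by norm_num)] at this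
  have hlog4 : Nat.log 4 (2 * n) ≤ Nat.log 2 (2 * n) := Nat.log_anti_left (by norm_num) (by norm_num)
  obtain ⟨L, hLdef⟩ : ∃ L : ℝ, L = (Nat.log 2 (2 * n) : ℝ) + 1 := ⟨_, rfl⟩
  obtain ⟨Lam, hLamdef⟩ : ∃ Lam : ℝ, Lam = (Nat.log 4 (2 * n) : ℝ) := ⟨_, rfl⟩
  have hL : 3 ≤ L := by
    rw [hLdef]
    have : (2 : ℝ) ≤ (Nat.log 2 (2 * n) : ℝ) := by exact_mod_cast hlog2
    linarith
  have hLam0 : 0 ≤ Lam := by rw [hLamdef]; positivity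
  have hLam : Lam ≤ L := by
    rw [hLamdef, hLdef]
    have : (Nat.log 4 (2 * n) : ℝ) ≤ (Nat.log 2 (2 * n) : ℝ) := by exact_mod_cast hlog4
    linarith
  have hF := factor_bound L Lam hL hLam0 hLam j t d (by omega) hd hdt
  simp only [Nat.add_sub_cancel]
  push_cast
  rw [← hLdef, ← hLamdef]
  obtain ⟨w, hwdef⟩ : ∃ w : ℝ, w = (n : ℝ) ^ (j + 1) * (4 * q) ^ t := ⟨_, rfl⟩
  rw [← hwdef] at hw
  have hn0 : (0 : ℝ) ≤ n := Nat.cast_nonneg n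
  have hnq : (n : ℝ) ^ (j + 1) * q ^ t ≤ w := by
    rw [hwdef]
    have : q ^ t ≤ (4 * q) ^ t := pow_le_pow_left₀ hq0.le (by linarith) t
    gcongr
  have hnq0 : 0 ≤ (n : ℝ) ^ (j + 1) * q ^ t := by positivity
  have he : Real.exp 1 ≤ 3 := by
    have := Real.exp_one_lt_d9
    linarith
  have hd0 : (0 : ℝ) ≤ d := Nat.cast_nonneg d
  have hL0 : (0 : ℝ) ≤ L := by linarith
  have hfirst : 2 * Real.exp 1 * ((n : ℝ) ^ (j + 1) * q ^ t) + L * d + 1 ≤ w * (8 + L * d) := by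
    have h1 : 2 * Real.exp 1 * ((n : ℝ) ^ (j + 1) * q ^ t) ≤ 6 * w := by
      calc 2 * Real.exp 1 * ((n : ℝ) ^ (j + 1) * q ^ t) ≤ 2 * 3 * w := by gcongr
        _ = 6 * w := by ring
    have h2 : L * d ≤ w * (L * d) := by
      have : 0 ≤ L * d := by positivity
      nlinarith
    nlinarith
  have hRHS : (8 * (n : ℝ)) ^ (j + 1) * (8 * L * q) ^ t = w * (8 ^ (j + 1) * (2 * L) ^ t) := by
    rw [hwdef]
    have : (8 * L * q) = (2 * L) * (4 * q) := by ring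
    rw [this, mul_pow, mul_pow (2 * L)]
    ring
  rw [hRHS]
  have hcast : ((j : ℝ) + 1) = ((j + 1 : ℕ) : ℝ) := by push_cast; ring
  rw [hcast]
  have hw0 : 0 ≤ w := by linarith
  calc (2 * Real.exp 1 * ((n : ℝ) ^ (j + 1) * q ^ t) + L * d + 1) * ((j + 1 : ℕ) : ℝ) ^ 2 * Lam ^ j
      ≤ (w * (8 + L * d)) * ((j + 1 : ℕ) : ℝ) ^ 2 * Lam ^ j := by gcongr
    _ = w * ((8 + L * d) * ((j + 1 : ℕ) : ℝ) ^ 2 * Lam ^ j) := by ring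
    _ ≤ w * (8 ^ (j + 1) * (2 * L) ^ t) := by gcongr

end Vale.Agent.Lib.P064.Log
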