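import Vale.Agent.Lib.P064.Log.Basic

/-!
# P064 / Log: covering all extensions by a maximal family with disjoint petals

Blueprint. Among the subfamilies `𝒟 ⊆ Ext F H S P ρ` with pairwise disjoint petals `φ(P)` take one of maximum
cardinality (`Finset.exists_max_image` on the filtered powerset; the empty family qualifies). Let
`X = 𝒟.biUnion fun φ => P.image φ`, so `|X| ≤ |𝒟| |P|`. Every `φ ∈ Ext F H S P ρ` has `φ(P) ∩ X ≠ ∅`: this is clear if `φ ∈ 𝒟` (as
`P ≠ ∅`), and otherwise `insert φ 𝒟` would be a larger family. So there are `x ∈ P` and `u ∈ X` with `φ x = u`, and then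
`φ ∈ Ext F H S (P.erase x) (Function.update ρ x u)` (`mem_ext_erase`). Hence `Ext F H S P ρ` is contained in the union over
`(x, u) ∈ P ×ˢ X` of these sets, each of cardinality at most `M`.
-/

namespace Vale.Agent.Lib.P064.Log

open SimpleGraph

variable {W V : Type} [Fintype W] [DecidableEq W] [Fintype V] [DecidableEq V]

theorem card_ext_le_of_disjoint_bound (F : SimpleGraph W) (H : SimpleGraph V) (S P : Finset W)
    (hP : P.Nonempty) (ρ : W → V) (M : ℕ)
    (hM : ∀ x ∈ P, ∀ ρ' : W → V, (Ext F H S (P.erase x) ρ').card ≤ M) (D : ℝ)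
    (hD : ∀ 𝒟 : Finset (W → V), 𝒟 ⊆ Ext F H S P ρ →
      (∀ φ ∈ 𝒟, ∀ φ' ∈ 𝒟, φ ≠ φ' → Disjoint (P.image φ) (P.image φ')) → (𝒟.card : ℝ) ≤ D) :
    ((Ext F H S P ρ).card : ℝ) ≤ D * (P.card : ℝ) ^ 2 * M := by
  classical
  obtain ⟨E, hE⟩ : ∃ E, E = Ext F H S P ρ := ⟨_, rfl⟩
  rw [← hE] at hD ⊢
  -- the admissible families
  obtain ⟨Fam, hFam⟩ : ∃ Fam : Finset (Finset (W → V)), Fam = E.powerset.filter (fun 𝒟 =>
      ∀ φ ∈ 𝒟, ∀ φ' ∈ 𝒟, φ ≠ φ' → Disjoint (P.image φ) (P.image φ')) := ⟨_, rfl⟩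
  have hne : Fam.Nonempty := by
    refine ⟨∅, ?_⟩
    rw [hFam, Finset.mem_filter]
    exact ⟨Finset.empty_mem_powerset _, by simp⟩
  obtain ⟨𝒟, h𝒟, hmax⟩ := Finset.exists_max_image Fam Finset.card hne
  rw [hFam, Finset.mem_filter, Finset.mem_powerset] at h𝒟
  obtain ⟨h𝒟E, h𝒟dis⟩ := h𝒟
  obtain ⟨X, hX⟩ : ∃ X, X = 𝒟.biUnion fun φ => P.image φ := ⟨_, rfl⟩
  have hXcard : X.card ≤ 𝒟.card * P.card := by
    rw [hX]
    refine Finset.card_biUnion_le.trans ?_
    calc ∑ φ ∈ 𝒟, (P.image φ).card ≤ ∑ _φ ∈ 𝒟, P.card :=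
          Finset.sum_le_sum fun φ _ => Finset.card_image_le
      _ = 𝒟.card * P.card := by rw [Finset.sum_const, smul_eq_mul]
  have hhit : ∀ φ ∈ E, ∃ x ∈ P, φ x ∈ X := by
    intro φ hφ
    by_cases hmem : φ ∈ 𝒟
    · obtain ⟨x, hx⟩ := hP
      refine ⟨x, hx, ?_⟩
      rw [hX, Finset.mem_biUnion]
      exact ⟨φ, hmem, Finset.mem_image_of_mem _ hx⟩
    · by_contra hcon
      have hdisj : ∀ φ' ∈ 𝒟, Disjoint (P.image φ) (P.image φ') := by
        intro φ' hφ'
        rw [Finset.disjoint_left]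
        intro u hu hu'
        obtain ⟨x, hx, rfl⟩ := Finset.mem_image.1 hu
        apply hcon
        refine ⟨x, hx, ?_⟩
        rw [hX, Finset.mem_biUnion]
        exact ⟨φ', hφ', hu'⟩
      have hins : insert φ 𝒟 ∈ Fam := by
        rw [hFam, Finset.mem_filter, Finset.mem_powerset]
        refine ⟨Finset.insert_subset hφ h𝒟E, ?_⟩
        intro a ha b hb hab
        rcases Finset.mem_insert.1 ha with ha' | ha'
        · rcases Finset.mem_insert.1 hb with hb' | hb'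
          · exact absurd (ha'.trans hb'.symm) hab
          · rw [ha']; exact hdisj b hb'
        · rcases Finset.mem_insert.1 hb with hb' | hb'
          · rw [hb']; exact (hdisj a ha').symm
          · exact h𝒟dis a ha' b hb' hab
      have h1 := hmax _ hins
      rw [Finset.card_insert_of_notMem hmem] at h1
      omega
  have hsub : E ⊆ (P ×ˢ X).biUnion fun z => Ext F H S (P.erase z.1) (Function.update ρ z.1 z.2) := by
    intro φ hφ
    obtain ⟨x, hx, hxX⟩ := hhit φ hφ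
    rw [Finset.mem_biUnion]
    refine ⟨(x, φ x), Finset.mem_product.2 ⟨hx, hxX⟩, ?_⟩
    rw [hE] at hφ
    exact mem_ext_erase F H S P ρ φ hφ x
  have hcard : E.card ≤ P.card * X.card * M := by
    refine (Finset.card_le_card hsub).trans ?_
    refine Finset.card_biUnion_le.trans ?_
    calc ∑ z ∈ P ×ˢ X, (Ext F H S (P.erase z.1) (Function.update ρ z.1 z.2)).card
        ≤ ∑ _z ∈ P ×ˢ X, M :=
          Finset.sum_le_sum fun z hz => hM z.1 (Finset.mem_product.1 hz).1 _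
      _ = P.card * X.card * M := by rw [Finset.sum_const, Finset.card_product, smul_eq_mul]
  have hDD : (𝒟.card : ℝ) ≤ D := hD 𝒟 h𝒟E h𝒟dis
  have h1 : (E.card : ℝ) ≤ (P.card : ℝ) * (X.card : ℝ) * M := by exact_mod_cast hcard
  have h2 : (X.card : ℝ) ≤ (𝒟.card : ℝ) * (P.card : ℝ) := by exact_mod_cast hXcard
  calc (E.card : ℝ) ≤ (P.card : ℝ) * (X.card : ℝ) * M := h1
    _ ≤ (P.card : ℝ) * ((𝒟.card : ℝ) * (P.card : ℝ)) * M := by gcongr
    _ ≤ (P.card : ℝ) * (D * (P.card : ℝ)) * M := by gcongr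
    _ = D * (P.card : ℝ) ^ 2 * M := by ring

end Vale.Agent.Lib.P064.Log
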