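import Vale.Agent.Lib.P064.ConnectedBound
import Vale.Agent.Lib.P064.Count

/-!
# P064 / Log: sunflowers

`G` is a graph on `A ⊕ B` (kernel `A`, petal `B`). `sun I G` is the graph on `A ⊕ I × B` which consists of one kernel and
of `|I|` petals, each attached to the kernel as in `G`. Compare `rep`, `factorial_le_card_aut_rep`,
`mul_card_edgeSet_le_rep` and `rep_le_of_hyp` in `Lib/P064/Packing.lean` and `Lib/P064/ConnectedBound.lean`, which treat the case of
an empty kernel.

Blueprint.
`factorial_le_card_aut_sun`: a permutation `σ` of `I` gives the automorphism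
`Equiv.sumCongr (Equiv.refl A) (Equiv.prodCongr σ (Equiv.refl B))`; this is injective in `σ` as `B` is nonempty.
`mul_card_edgeSet_le_sun`: the map `(i, e) ↦ e.map (Sum.map id (Prod.mk i))` from `I × G.edgeSet` to `(sun I G).edgeSet` is
injective, since every edge of `G` has an endpoint in `B`.
`sun_weight`: `HypE` for `sun I G`, with `card_copy_eq`, `card_copy_top`: `N(K_n, sun) · |Aut| = n.descFactorial (|A| + |I| |B|)`.
`le_or_of_factorial_le`: if `s > 2 e x` then `x^s ≤ (s/(2e))^s ≤ s!/2^s` (`Real.pow_div_factorial_le_exp`, see the proof of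
`le_of_half_le_pow_div_factorial`), so `s!/2 ≤ M s!/2^s`.
-/

namespace Vale.Agent.Lib.P064.Log

open SimpleGraph

variable {A B : Type} {I : Type}

/-- one kernel `A` and `|I|` petals `B`, attached as in `G` -/
def sun (I : Type) (G : SimpleGraph (A ⊕ B)) : SimpleGraph (A ⊕ I × B) where
  Adj u v := G.Adj (Sum.map id Prod.snd u) (Sum.map id Prod.snd v) ∧
    ∀ i b j b', u = Sum.inr (i, b) → v = Sum.inr (j, b') → i = j
  symm := ⟨fun _ _ ⟨h1, h2⟩ => ⟨h1.symm, fun i b j b' hv hu => (h2 j b' i b hu hv).symm⟩⟩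
  loopless := ⟨fun _ h => G.loopless.irrefl _ h.1⟩

theorem factorial_le_card_aut_sun [Finite A] [Finite B] [Nonempty B] [Fintype I]
    (G : SimpleGraph (A ⊕ B)) :
    (Fintype.card I).factorial ≤ Nat.card (sun I G ≃g sun I G) := by
  classical
  let m : Equiv.Perm I → (sun I G ≃g sun I G) := fun σ =>
    { toEquiv := Equiv.sumCongr (Equiv.refl A) (Equiv.prodCongr σ (Equiv.refl B))
      map_rel_iff' := by
        rintro (a | ⟨i, b⟩) (a' | ⟨j, b'⟩)
        · simp [sun]
        · simp [sun]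
        · simp [sun]
        · simp only [sun, Equiv.sumCongr_apply, Sum.map_inr, Equiv.prodCongr_apply, Prod.map_apply,
            Equiv.refl_apply, Sum.inr.injEq, Prod.mk.injEq, and_imp]
          refine and_congr_right fun _ => ⟨fun h i1 b1 j1 b1' h1 _ h2 _ => ?_,
            fun h i1 b1 j1 b1' h1 _ h2 _ => ?_⟩
          · rw [← h1, ← h2]
            exact σ.injective (h _ b _ b' rfl rfl rfl rfl)
          · rw [← h1, ← h2, h i b j b' rfl rfl rfl rfl] }
  have hm : Function.Injective m := by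
    intro σ τ h
    obtain ⟨w⟩ := ‹Nonempty B›
    ext i
    have := congrArg (fun k : sun I G ≃g sun I G => k (Sum.inr (i, w))) h
    simpa [m] using this
  calc (Fintype.card I).factorial = Nat.card (Equiv.Perm I) := by
        rw [Nat.card_eq_fintype_card, Fintype.card_perm]
    _ ≤ _ := Nat.card_le_card_of_injective m hm

theorem map_snd_map_mk (i : I) (x : A ⊕ B) :
    Sum.map id Prod.snd (Sum.map id (Prod.mk i) x : A ⊕ I × B) = x := by
  cases x <;> rfl

theorem sun_adj_map (G : SimpleGraph (A ⊕ B)) (i : I) {x y : A ⊕ B} (h : G.Adj x y) :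
    (sun I G).Adj (Sum.map id (Prod.mk i) x) (Sum.map id (Prod.mk i) y) := by
  refine ⟨by rwa [map_snd_map_mk, map_snd_map_mk], ?_⟩
  intro i1 b1 j1 b1' h1 h2
  cases x <;> cases y <;> simp_all

theorem mul_card_edgeSet_le_sun [Finite A] [Finite B] [Fintype I] (G : SimpleGraph (A ⊕ B))
    (hG : ∀ a a' : A, ¬ G.Adj (Sum.inl a) (Sum.inl a')) :
    Fintype.card I * Nat.card G.edgeSet ≤ Nat.card (sun I G).edgeSet := by
  classical
  let m : I × G.edgeSet → (sun I G).edgeSet := fun p =>
    ⟨p.2.1.map (Sum.map id (Prod.mk p.1)), by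
      obtain ⟨i, ⟨e, he⟩⟩ := p
      induction e using Sym2.ind with
      | _ x y => exact sun_adj_map G i he⟩
  have hm : Function.Injective m := by
    rintro ⟨i, ⟨e, he⟩⟩ ⟨j, ⟨e', he'⟩⟩ h
    have h1 : e.map (Sum.map id (Prod.mk i)) = e'.map (Sum.map id (Prod.mk j)) :=
      congrArg Subtype.val h
    have h2 : e = e' := by
      have := congrArg (Sym2.map (Sum.map id Prod.snd : A ⊕ I × B → A ⊕ B)) h1
      rw [Sym2.map_map, Sym2.map_map] at this
      have e1 : ∀ k : I, ((Sum.map id Prod.snd : A ⊕ I × B → A ⊕ B) ∘ Sum.map id (Prod.mk k)) = id :=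
        fun k => funext fun x => map_snd_map_mk k x
      rwa [e1, e1, Sym2.map_id, id, id] at this
    subst h2
    have h3 : i = j := by
      induction e using Sym2.ind with
      | _ x y =>
        have hxy : G.Adj x y := he
        simp only [Sym2.map_mk, Sym2.eq_iff] at h1
        rcases x with a | b <;> rcases y with a' | b'
        · exact absurd hxy (hG a a')
        · rcases h1 with ⟨_, h4⟩ | ⟨h4, _⟩ <;> simp at h4
          exact h4
        · rcases h1 with ⟨h4, _⟩ | ⟨h4, _⟩ <;> simp at h4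
          exact h4
        · rcases h1 with ⟨h4, _⟩ | ⟨h4, _⟩ <;> simp at h4
          · exact h4
          · exact h4.1
    subst h3
    rfl
  calc Fintype.card I * Nat.card G.edgeSet = Nat.card (I × G.edgeSet) := by
        rw [Nat.card_prod, Nat.card_eq_fintype_card (α := I)]
    _ ≤ _ := Nat.card_le_card_of_injective m hm

theorem sun_weight {V : Type} [Finite A] [Finite B] [Nonempty B] [Fintype I] (n : ℕ) (q : ℝ)
    (hq0 : 0 ≤ q) (hq1 : q ≤ 1) (H : SimpleGraph V) (hyp : HypE n q H) (G : SimpleGraph (A ⊕ B))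
    (hG : ∀ a a' : A, ¬ G.Adj (Sum.inl a) (Sum.inl a')) (h : sun I G ⊑ H) :
    ((Fintype.card I).factorial : ℝ) / 2 ≤
      (n : ℝ) ^ Nat.card A * ((n : ℝ) ^ Nat.card B * q ^ Nat.card G.edgeSet) ^ Fintype.card I := by
  have h0 := hyp (A ⊕ I × B) (sun I G) h
  set s := Fintype.card I with hs
  set cc := (⊤ : SimpleGraph (Fin n)).copyCount (sun I G) with hcc
  have h1 : cc * Nat.card (sun I G ≃g sun I G) = n.descFactorial (Nat.card A + s * Nat.card B) := by
    rw [hcc, ← card_copy_eq, card_copy_top, Nat.card_sum, Nat.card_prod,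
      Nat.card_eq_fintype_card (α := I)]
  have h2 : cc * s.factorial ≤ n ^ (Nat.card A + s * Nat.card B) :=
    calc cc * s.factorial ≤ cc * Nat.card (sun I G ≃g sun I G) :=
          Nat.mul_le_mul_left _ (factorial_le_card_aut_sun G)
      _ = n.descFactorial (Nat.card A + s * Nat.card B) := h1
      _ ≤ n ^ (Nat.card A + s * Nat.card B) := Nat.descFactorial_le_pow _ _
  have h2' : (cc : ℝ) * s.factorial ≤ (n : ℝ) ^ (Nat.card A + s * Nat.card B) := by
    exact_mod_cast h2
  have hf : (0 : ℝ) < s.factorial := by exact_mod_cast s.factorial_pos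
  have h3 : q ^ Nat.card (sun I G).edgeSet ≤ q ^ (s * Nat.card G.edgeSet) :=
    pow_le_pow_of_le_one hq0 hq1 (mul_card_edgeSet_le_sun G hG)
  calc (s.factorial : ℝ) / 2 = (1 / 2 : ℝ) * s.factorial := by ring
    _ ≤ (cc * q ^ Nat.card (sun I G).edgeSet) * s.factorial := by
        apply mul_le_mul_of_nonneg_right h0 hf.le
    _ = (cc * s.factorial) * q ^ Nat.card (sun I G).edgeSet := by ring
    _ ≤ (n : ℝ) ^ (Nat.card A + s * Nat.card B) * q ^ (s * Nat.card G.edgeSet) := by
        apply mul_le_mul h2' h3 (by positivity) (by positivity)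
    _ = (n : ℝ) ^ Nat.card A * ((n : ℝ) ^ Nat.card B * q ^ Nat.card G.edgeSet) ^ s := by
        rw [mul_pow, ← pow_mul, ← pow_mul, mul_comm s, mul_comm s, pow_add]
        ring

theorem le_or_of_factorial_le (x M : ℝ) (hx : 0 ≤ x) (hM : 0 ≤ M) (s : ℕ)
    (h : (s.factorial : ℝ) / 2 ≤ M * x ^ s) : (s : ℝ) ≤ 2 * Real.exp 1 * x ∨ (2 : ℝ) ^ s ≤ 2 * M := by
  by_cases hlt : (s : ℝ) ≤ 2 * Real.exp 1 * x
  · exact Or.inl hlt
  right
  push Not at hlt
  have he : 0 < Real.exp 1 := Real.exp_pos 1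
  have hr0 : (0 : ℝ) < s := lt_of_le_of_lt (by positivity) hlt
  have h1 : x ≤ s / (2 * Real.exp 1) := by
    rw [le_div_iff₀ (by positivity)]
    linarith
  have h2 : x ^ s ≤ (s / (2 * Real.exp 1)) ^ s := pow_le_pow_left₀ hx h1 s
  have h3 : (s : ℝ) ^ s / s.factorial ≤ Real.exp 1 ^ s := by
    rw [Real.exp_one_pow]
    exact Real.pow_div_factorial_le_exp s hr0.le s
  have hf : (0 : ℝ) < s.factorial := by exact_mod_cast s.factorial_pos
  have h4 : (s : ℝ) ^ s ≤ Real.exp 1 ^ s * s.factorial := by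
    rwa [div_le_iff₀ hf] at h3
  have h6 : (s / (2 * Real.exp 1)) ^ s ≤ s.factorial / 2 ^ s := by
    rw [div_pow, mul_pow, div_le_div_iff₀ (by positivity) (by positivity)]
    calc (s : ℝ) ^ s * 2 ^ s ≤ (Real.exp 1 ^ s * s.factorial) * 2 ^ s := by
          apply mul_le_mul_of_nonneg_right h4 (by positivity)
      _ = s.factorial * (2 ^ s * Real.exp 1 ^ s) := by ring
  have h7 : (s.factorial : ℝ) / 2 ≤ M * (s.factorial / 2 ^ s) :=
    h.trans (mul_le_mul_of_nonneg_left (h2.trans h6) hM)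
  have h2s : (0 : ℝ) < 2 ^ s := by positivity
  have h8 : (s.factorial : ℝ) * 2 ^ s ≤ (s.factorial : ℝ) * (2 * M) := by
    have : (s.factorial : ℝ) / 2 * (2 * 2 ^ s) ≤ M * (s.factorial / 2 ^ s) * (2 * 2 ^ s) :=
      mul_le_mul_of_nonneg_right h7 (by positivity)
    have e1 : (s.factorial : ℝ) / 2 * (2 * 2 ^ s) = s.factorial * 2 ^ s := by ring
    have e2 : M * (s.factorial / 2 ^ s) * (2 * 2 ^ s) = s.factorial * (2 * M) := by
      field_simp
    rwa [e1, e2] at this
  exact le_of_mul_le_mul_left h8 hf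

/-- the form in which the bound is used -/
theorem sun_card_le {V : Type} [Finite A] [Finite B] [Nonempty B] [Fintype I] (n : ℕ) (hn : 1 ≤ n)
    (q : ℝ) (hq0 : 0 ≤ q) (hq1 : q ≤ 1) (H : SimpleGraph V) (hyp : HypE n q H)
    (G : SimpleGraph (A ⊕ B)) (hG : ∀ a a' : A, ¬ G.Adj (Sum.inl a) (Sum.inl a'))
    (h : sun I G ⊑ H) :
    (Fintype.card I : ℝ) ≤ 2 * Real.exp 1 * ((n : ℝ) ^ Nat.card B * q ^ Nat.card G.edgeSet) +
      ((Nat.log 2 (2 * n) : ℝ) + 1) * Nat.card A + 1 := by
  have hw := sun_weight n q hq0 hq1 H hyp G hG h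
  set s := Fintype.card I with hs
  set a := Nat.card A with ha
  set x : ℝ := (n : ℝ) ^ Nat.card B * q ^ Nat.card G.edgeSet with hx
  have hx0 : 0 ≤ x := by positivity
  have he : 0 < Real.exp 1 := Real.exp_pos 1
  have hL0 : (0 : ℝ) ≤ ((Nat.log 2 (2 * n) : ℝ) + 1) * a := by positivity
  rcases le_or_of_factorial_le x ((n : ℝ) ^ a) hx0 (by positivity) s hw with h1 | h1
  · linarith
  · have h2 : 2 ^ s ≤ 2 * n ^ a := by exact_mod_cast h1
    have h3 : s ≤ (Nat.log 2 (2 * n) + 1) * a + 1 := by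
      rcases Nat.eq_zero_or_pos a with h0 | h0
      · rw [h0, pow_zero, mul_one] at h2
        have : s ≤ 1 := by
          by_contra hcon
          push Not at hcon
          have : 2 ^ 2 ≤ 2 ^ s := Nat.pow_le_pow_right (by norm_num) hcon
          omega
        omega
      · have h4 : 2 * n ^ a ≤ (2 * n) ^ a := by
          rw [mul_pow]
          apply Nat.mul_le_mul_right
          calc 2 = 2 ^ 1 := by norm_num
            _ ≤ 2 ^ a := Nat.pow_le_pow_right (by norm_num) h0
        have h5 : 2 * n < 2 ^ (Nat.log 2 (2 * n) + 1) := Nat.lt_pow_succ_log_self (by norm_num) _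
        have h6 : (2 * n) ^ a < (2 ^ (Nat.log 2 (2 * n) + 1)) ^ a :=
          Nat.pow_lt_pow_left h5 h0.ne'
        rw [← pow_mul] at h6
        have h7 : 2 ^ s < 2 ^ ((Nat.log 2 (2 * n) + 1) * a) := lt_of_le_of_lt (h2.trans h4) h6
        have := (Nat.pow_lt_pow_iff_right (by norm_num : 1 < 2)).1 h7
        omega
    have h3' : (s : ℝ) ≤ ((Nat.log 2 (2 * n) : ℝ) + 1) * a + 1 := by exact_mod_cast h3
    have : 0 ≤ 2 * Real.exp 1 * x := by positivity
    linarith

end Vale.Agent.Lib.P064.Log
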