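import Vale.Agent.Lib.P064.Log.Basic
import Vale.Agent.Lib.P064.Log.Sun

/-!
# P064 / Log: a family of extensions with pairwise disjoint petals is a sunflower in `H`

Blueprint for `card_disjoint_family_le`. Let `A = ↥(bdry F S P)`, `B = ↥P`, `I = ↥𝒟`, `val : A ⊕ B → W` the inclusion and
`G = petal F S P` (the edges of `F` between `P` and its boundary and inside `P`). The map
`Sum.inl y ↦ ρ y`, `Sum.inr (φ, x) ↦ φ x` is an injective homomorphism `sun I G → H`: every `φ ∈ 𝒟` is injective on `S`,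
agrees with `ρ` on the boundary, and the sets `φ(P)` are pairwise disjoint. So `sun I G ⊑ H` and `sun_card_le` applies;
`Nat.card A = |bdry F S P|`, `Nat.card B = |P|`, `Fintype.card I = |𝒟|`, and `|tch F S P| ≤ Nat.card G.edgeSet` (`card_tch_le_petal`: every edge
in `tch F S P` has its endpoints in `P` or in the boundary), so `q^{e(G)} ≤ q^{|tch F S P|}`.
-/

namespace Vale.Agent.Lib.P064.Log

open SimpleGraph

variable {W V : Type} [Fintype W] [DecidableEq W] [Fintype V] [DecidableEq V]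

/-- the petal graph on `bdry ⊕ P` -/
def petal (F : SimpleGraph W) (S P : Finset W) : SimpleGraph (↥(bdry F S P) ⊕ ↥P) where
  Adj u v := F.Adj (Sum.elim Subtype.val Subtype.val u) (Sum.elim Subtype.val Subtype.val v) ∧
    (u.isRight ∨ v.isRight)
  symm := ⟨fun _ _ h => ⟨h.1.symm, h.2.symm⟩⟩
  loopless := ⟨fun _ h => F.loopless.irrefl _ h.1⟩

theorem petal_not_adj_inl (F : SimpleGraph W) (S P : Finset W) (a a' : ↥(bdry F S P)) :
    ¬ (petal F S P).Adj (Sum.inl a) (Sum.inl a') := by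
  rintro ⟨_, h⟩
  simp at h

theorem exists_lift_petal (F : SimpleGraph W) (S P : Finset W) {a b : W} (hab : F.Adj a b)
    (ha : a ∈ S) (hb : b ∈ S) (hP : a ∈ P ∨ b ∈ P) :
    ∃ u v : ↥(bdry F S P) ⊕ ↥P, Sum.elim Subtype.val Subtype.val u = a ∧
      Sum.elim Subtype.val Subtype.val v = b ∧ (u.isRight ∨ v.isRight) := by
  by_cases haP : a ∈ P
  · by_cases hbP : b ∈ P
    · exact ⟨Sum.inr ⟨a, haP⟩, Sum.inr ⟨b, hbP⟩, rfl, rfl, Or.inl rfl⟩
    · exact ⟨Sum.inr ⟨a, haP⟩, Sum.inl ⟨b, (mem_bdry F S P b).2 ⟨⟨hb, hbP⟩, a, haP, hab.symm⟩⟩,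
        rfl, rfl, Or.inl rfl⟩
  · have hbP : b ∈ P := hP.resolve_left haP
    exact ⟨Sum.inl ⟨a, (mem_bdry F S P a).2 ⟨⟨ha, haP⟩, b, hbP, hab⟩⟩, Sum.inr ⟨b, hbP⟩,
      rfl, rfl, Or.inr rfl⟩

theorem card_tch_le_petal (F : SimpleGraph W) (S P : Finset W) :
    (tch F S P).card ≤ Nat.card (petal F S P).edgeSet := by
  classical
  have hex : ∀ e : ↥(tch F S P), ∃ e' : (petal F S P).edgeSet,
      e'.1.map (Sum.elim Subtype.val Subtype.val) = e.1 := by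
    rintro ⟨e, he⟩
    induction e using Sym2.ind with
    | _ a b =>
      obtain ⟨hab, ⟨ha, hb⟩, hP⟩ := (mk_mem_tch F S P a b).1 he
      obtain ⟨u, v, hu, hv, huv⟩ := exists_lift_petal F S P hab ha hb hP
      refine ⟨⟨s(u, v), ?_⟩, ?_⟩
      · show (petal F S P).Adj u v
        exact ⟨by rw [hu, hv]; exact hab, huv⟩
      · simp only [Sym2.map_mk, hu, hv]
  choose g hg using hex
  have hinj : Function.Injective g := by
    intro e1 e2 h
    apply Subtype.ext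
    rw [← hg e1, ← hg e2, h]
  calc (tch F S P).card = Nat.card ↥(tch F S P) := by
        rw [Nat.card_eq_fintype_card, Fintype.card_coe]
    _ ≤ _ := Nat.card_le_card_of_injective g hinj

theorem sun_petal_isContained (F : SimpleGraph W) (H : SimpleGraph V) (S P : Finset W)
    (hPS : P ⊆ S) (ρ : W → V) (𝒟 : Finset (W → V)) (h𝒟 : 𝒟 ⊆ Ext F H S P ρ)
    (hne : 𝒟.Nonempty)
    (hdisj : ∀ φ ∈ 𝒟, ∀ φ' ∈ 𝒟, φ ≠ φ' → Disjoint (P.image φ) (P.image φ')) :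
    sun (↥𝒟) (petal F S P) ⊑ H := by
  classical
  have hE : ∀ φ ∈ 𝒟, IsEmb F H S φ ∧ ∀ x, x ∉ P → φ x = ρ x :=
    fun φ hφ => (mem_ext F H S P ρ φ).1 (h𝒟 hφ)
  have hb : ∀ y : ↥(bdry F S P), y.1 ∈ S ∧ y.1 ∉ P := fun y => ((mem_bdry F S P y.1).1 y.2).1
  obtain ⟨φ0, hφ0⟩ := hne
  let f : ↥(bdry F S P) ⊕ ↥𝒟 × ↥P → V := Sum.elim (fun y => ρ y.1) (fun p => p.1.1 p.2.1)
  refine ⟨⟨⟨f, ?_⟩, ?_⟩⟩
  · rintro (y | ⟨φ, x⟩) (y' | ⟨φ', x'⟩) ⟨h1, h2⟩
    · exact absurd h1 (petal_not_adj_inl F S P y y')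
    · have hF : F.Adj y.1 x'.1 := h1.1
      show H.Adj (ρ y.1) (φ'.1 x'.1)
      rw [← (hE φ'.1 φ'.2).2 y.1 (hb y).2]
      exact (hE φ'.1 φ'.2).1.2 _ (hb y).1 _ (hPS x'.2) hF
    · have hF : F.Adj x.1 y'.1 := h1.1
      show H.Adj (φ.1 x.1) (ρ y'.1)
      rw [← (hE φ.1 φ.2).2 y'.1 (hb y').2]
      exact (hE φ.1 φ.2).1.2 _ (hPS x.2) _ (hb y').1 hF
    · have hF : F.Adj x.1 x'.1 := h1.1
      have hφ : φ = φ' := h2 φ x φ' x' rfl rfl
      subst hφ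
      exact (hE φ.1 φ.2).1.2 _ (hPS x.2) _ (hPS x'.2) hF
  · rintro (y | ⟨φ, x⟩) (y' | ⟨φ', x'⟩) h
    · have h' : ρ y.1 = ρ y'.1 := h
      rw [← (hE φ0 hφ0).2 y.1 (hb y).2, ← (hE φ0 hφ0).2 y'.1 (hb y').2] at h'
      have := (hE φ0 hφ0).1.1 (Finset.mem_coe.2 (hb y).1) (Finset.mem_coe.2 (hb y').1) h'
      rw [Subtype.ext this]
    · have h' : ρ y.1 = φ'.1 x'.1 := h
      rw [← (hE φ'.1 φ'.2).2 y.1 (hb y).2] at h'
      have := (hE φ'.1 φ'.2).1.1 (Finset.mem_coe.2 (hb y).1) (Finset.mem_coe.2 (hPS x'.2)) h'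
      exact absurd (this ▸ x'.2) (hb y).2
    · have h' : φ.1 x.1 = ρ y'.1 := h
      rw [← (hE φ.1 φ.2).2 y'.1 (hb y').2] at h'
      have := (hE φ.1 φ.2).1.1 (Finset.mem_coe.2 (hPS x.2)) (Finset.mem_coe.2 (hb y').1) h'
      exact absurd (this ▸ x.2) (hb y').2
    · have h' : φ.1 x.1 = φ'.1 x'.1 := h
      have hφ : φ = φ' := by
        by_contra hne'
        have hd := hdisj φ.1 φ.2 φ'.1 φ'.2 (fun hh => hne' (Subtype.ext hh))
        exact Finset.disjoint_left.1 hd (Finset.mem_image_of_mem _ x.2)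
          (h' ▸ Finset.mem_image_of_mem _ x'.2)
      subst hφ
      have := (hE φ.1 φ.2).1.1 (Finset.mem_coe.2 (hPS x.2)) (Finset.mem_coe.2 (hPS x'.2)) h'
      rw [Subtype.ext this]

theorem card_disjoint_family_le (F : SimpleGraph W) (H : SimpleGraph V) (n : ℕ) (hn : 1 ≤ n)
    (q : ℝ) (hq0 : 0 ≤ q) (hq1 : q ≤ 1) (hyp : HypE n q H) (S P : Finset W) (hPS : P ⊆ S)
    (hP : P.Nonempty) (ρ : W → V) (𝒟 : Finset (W → V)) (h𝒟 : 𝒟 ⊆ Ext F H S P ρ)
    (hdisj : ∀ φ ∈ 𝒟, ∀ φ' ∈ 𝒟, φ ≠ φ' → Disjoint (P.image φ) (P.image φ')) :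
    (𝒟.card : ℝ) ≤ 2 * Real.exp 1 * ((n : ℝ) ^ P.card * q ^ (tch F S P).card) +
      ((Nat.log 2 (2 * n) : ℝ) + 1) * (bdry F S P).card + 1 := by
  classical
  have he : 0 < Real.exp 1 := Real.exp_pos 1
  rcases 𝒟.eq_empty_or_nonempty with h0 | hne
  · rw [h0, Finset.card_empty, Nat.cast_zero]
    positivity
  · have : Nonempty ↥P := hP.to_subtype
    have h1 := sun_card_le (I := ↥𝒟) n hn q hq0 hq1 H hyp (petal F S P) (petal_not_adj_inl F S P)
      (sun_petal_isContained F H S P hPS ρ 𝒟 h𝒟 hne hdisj)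
    rw [Fintype.card_coe, Nat.card_eq_fintype_card (α := ↥P), Fintype.card_coe,
      Nat.card_eq_fintype_card (α := ↥(bdry F S P)), Fintype.card_coe] at h1
    have h2 : q ^ Nat.card (petal F S P).edgeSet ≤ q ^ (tch F S P).card :=
      pow_le_pow_of_le_one hq0 hq1 (card_tch_le_petal F S P)
    have h3 : 2 * Real.exp 1 * ((n : ℝ) ^ P.card * q ^ Nat.card (petal F S P).edgeSet)
        ≤ 2 * Real.exp 1 * ((n : ℝ) ^ P.card * q ^ (tch F S P).card) := by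
      apply mul_le_mul_of_nonneg_left _ (by positivity)
      exact mul_le_mul_of_nonneg_left h2 (by positivity)
    linarith

end Vale.Agent.Lib.P064.Log
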