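import Vale.Agent.Lib.P064.Log.Rigid
import Vale.Agent.Lib.P064.Log.SunEmbed
import Vale.Agent.Lib.P064.Log.Primitive
import Vale.Agent.Lib.P064.Log.Numeric

/-!
# P064 / Log: the bound for one primitive piece

Blueprint. Let `P = S \ R ≠ ∅`, `k = |P|`, `t = |tch F S P|`, `d = |bdry F S P|`, `Q = 4 q`. If there is no extension the left side
is `0`. Otherwise fix an extension `φ₀`.
* For `x ∈ P` the pair `(S, P.erase x)` is rigid at `(n, Q)`: for `Y ⊆ P.erase x` the set `T = S \ Y` satisfies `R ⊂ T ⊆ S`, so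
  `wt S ≤ wt (S \ Y)`, and `wt_split`, `wt_pos` give `n^{|Y|} Q^{|tch F S Y|} ≤ 1`.
* `rigid_bound` gives `|Ext F H S (P.erase x) ρ'| ≤ Λ^(k-1)` for all `ρ'`, and `k - 1 ≤ |tch F S (P.erase x)| ≤ t` (use `mem_ext_erase` for
  `φ₀`, `tch_mono_right`). If `d ≥ 1` take `y` in the boundary and `z ∈ P` adjacent to it: `card_tch_erase_lt` gives `k ≤ t`.
* `card_bdry_le` gives `d ≤ t`; `h1` with `wt_split` (`S \ (S \ R) = R`) gives `1 ≤ n^k Q^t`.
* `card_disjoint_family_le` and `card_ext_le_of_disjoint_bound` bound the number of extensions, `piece_numeric` bounds the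
  result by `(8n)^k (8 ℓ q)^t`, and `wt_split` for the weights at `(8n, 8 ℓ q)` finishes the proof.
-/

namespace Vale.Agent.Lib.P064.Log

open SimpleGraph

variable {W V : Type} [Fintype W] [DecidableEq W] [Fintype V] [DecidableEq V]

theorem piece_bound (F : SimpleGraph W) (H : SimpleGraph V) (n : ℕ) (hn : 2 ≤ n) (q : ℝ)
    (hq0 : 0 < q) (hq4 : 4 * q ≤ 1) (hyp : HypE n q H) (R S : Finset W) (hRS : R ⊂ S)
    (h1 : wt F n (4 * q) R ≤ wt F n (4 * q) S)
    (h2 : ∀ T, R ⊂ T → T ⊆ S → wt F n (4 * q) S ≤ wt F n (4 * q) T) (ρ : W → V) :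
    ((Ext F H S (S \ R) ρ).card : ℝ) *
        wt F (8 * (n : ℝ)) (8 * ((Nat.log 2 (2 * n) : ℝ) + 1) * q) R ≤
      wt F (8 * (n : ℝ)) (8 * ((Nat.log 2 (2 * n) : ℝ) + 1) * q) S := by
  classical
  have hn0 : (0 : ℝ) < n := by exact_mod_cast (by omega : 0 < n)
  have hQ0 : (0 : ℝ) < 4 * q := by positivity
  have hN' : (0 : ℝ) < 8 * (n : ℝ) := by positivity
  have hQ' : (0 : ℝ) < 8 * ((Nat.log 2 (2 * n) : ℝ) + 1) * q := by positivity
  set P := S \ R with hPdef
  have hPS : P ⊆ S := Finset.sdiff_subset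
  have hSP : S \ P = R := Finset.sdiff_sdiff_eq_self hRS.subset
  have hP : P.Nonempty := by
    rw [hPdef, Finset.sdiff_nonempty]
    exact hRS.2
  by_cases hne : (Ext F H S P ρ).Nonempty
  swap
  · rw [Finset.not_nonempty_iff_eq_empty] at hne
    rw [hne, Finset.card_empty, Nat.cast_zero, zero_mul]
    exact (wt_pos F hN' hQ' S).le
  obtain ⟨φ₀, hφ₀⟩ := hne
  set k := P.card with hk
  set t := (tch F S P).card with ht
  set d := (bdry F S P).card with hd
  have hk1 : 1 ≤ k := Finset.card_pos.2 hP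
  -- rigidity of the pairs `(S, P.erase x)`
  have hrig : ∀ x ∈ P, Rigid F n (4 * q) S (P.erase x) := by
    intro x hx Y hY
    have hYP : Y ⊆ P := hY.trans (Finset.erase_subset _ _)
    have hYS : Y ⊆ S := hYP.trans hPS
    have hxY : x ∉ Y := fun h => (Finset.mem_erase.1 (hY h)).1 rfl
    have hxS : x ∈ S := hPS hx
    have hxR : x ∉ R := (Finset.mem_sdiff.1 hx).2
    have hRT : R ⊂ S \ Y := by
      rw [Finset.ssubset_iff_of_subset]
      · exact ⟨x, Finset.mem_sdiff.2 ⟨hxS, hxY⟩, hxR⟩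
      · intro a ha
        exact Finset.mem_sdiff.2 ⟨hRS.subset ha, fun h => (Finset.mem_sdiff.1 (hYP h)).2 ha⟩
    have h3 := h2 (S \ Y) hRT Finset.sdiff_subset
    rw [wt_split F n (4 * q) S Y hYS] at h3
    have h4 := wt_pos F hn0 hQ0 (S \ Y)
    by_contra hlt
    push Not at hlt
    nlinarith
  have hcard : ∀ x ∈ P, (P.erase x).card = k - 1 := fun x hx => Finset.card_erase_of_mem hx
  have hsub : ∀ x, P.erase x ⊆ S := fun x => (Finset.erase_subset _ _).trans hPS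
  have hrb : ∀ x (hx : x ∈ P) (ρ' : W → V), (Ext F H S (P.erase x) ρ').card ≤ Nat.log 4 (2 * n) ^ (k - 1) ∧
      ((Ext F H S (P.erase x) ρ').Nonempty → k - 1 ≤ (tch F S (P.erase x)).card) := fun x hx ρ' =>
    rigid_bound F H n hn q hq0 hq4 hyp (k - 1) S (P.erase x) (hcard x hx) (hsub x) (hrig x hx) ρ'
  have hlow : ∀ x ∈ P, k - 1 ≤ (tch F S (P.erase x)).card := fun x hx =>
    (hrb x hx _).2 ⟨φ₀, mem_ext_erase F H S P ρ φ₀ hφ₀ x⟩
  have hkt : k ≤ t + 1 := by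
    obtain ⟨x, hx⟩ := hP
    have h3 := hlow x hx
    have h4 : (tch F S (P.erase x)).card ≤ t :=
      Finset.card_le_card (tch_mono_right F S (Finset.erase_subset _ _))
    omega
  have hdk : 1 ≤ d → k ≤ t := by
    intro hd1
    obtain ⟨y, hy⟩ := Finset.card_pos.1 (by omega : 0 < (bdry F S P).card)
    rw [mem_bdry] at hy
    obtain ⟨⟨hyS, hyP⟩, z, hz, hyz⟩ := hy
    have h3 := hlow z hz
    have h4 := card_tch_erase_lt F S P y z hz (hPS hz) hyS hyP hyz
    omega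
  have hdt : d ≤ t := card_bdry_le F S P hPS
  have hw : 1 ≤ (n : ℝ) ^ k * (4 * q) ^ t := by
    rw [wt_split F n (4 * q) S P hPS, hSP] at h1
    have h4 := wt_pos F hn0 hQ0 R
    by_contra hlt
    push Not at hlt
    nlinarith
  have hmain : ((Ext F H S P ρ).card : ℝ) ≤
      (2 * Real.exp 1 * ((n : ℝ) ^ k * q ^ t) + ((Nat.log 2 (2 * n) : ℝ) + 1) * d + 1) *
        (k : ℝ) ^ 2 * ((Nat.log 4 (2 * n) ^ (k - 1) : ℕ) : ℝ) :=
    card_ext_le_of_disjoint_bound F H S P hP ρ (Nat.log 4 (2 * n) ^ (k - 1))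
      (fun x hx ρ' => (hrb x hx ρ').1) _
      (fun 𝒟 h𝒟 hdisj => card_disjoint_family_le F H n (by omega) q hq0.le (by linarith) hyp S P
        hPS hP ρ 𝒟 h𝒟 hdisj)
  have hnum := piece_numeric n hn q hq0 k t d hk1 hkt hdk hdt hw
  rw [wt_split F (8 * (n : ℝ)) (8 * ((Nat.log 2 (2 * n) : ℝ) + 1) * q) S P hPS, hSP, mul_comm]
  exact mul_le_mul_of_nonneg_left (hmain.trans hnum) (wt_pos F hN' hQ' R).le

end Vale.Agent.Lib.P064.Log
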