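import Vale.Agent.Lib.P064.Log.Basic
import Vale.Agent.Lib.P064.Count

/-!
# P064 / Log: the expectation hypothesis in weight form

Blueprint for `half_le_weight`: let `F'` be the graph on the subtype `↥X` with
`F'.Adj a b ↔ s(a.1, b.1) ∈ E` (for instance `(SimpleGraph.fromEdgeSet (E : Set (Sym2 V))).comap Subtype.val`).
`Subtype.val` is an injective homomorphism `F' → H`, so `F' ⊑ H` and `HypE` gives
`1/2 ≤ N(K_n,F') q^{e(F')}`. By `card_copy_eq` and `card_copy_top`,
`N(K_n,F') ≤ Nat.card (Copy F' ⊤) = n.descFactorial |X| ≤ n^|X|` (`Nat.descFactorial_le_pow`, `card_aut_pos`).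
The map `E → F'.edgeSet` is injective, so `|E| ≤ e(F')` and `q^{e(F')} ≤ q^{|E|}` (`pow_le_pow_of_le_one`).
-/

namespace Vale.Agent.Lib.P064.Log

open SimpleGraph

variable {V : Type} [Fintype V] [DecidableEq V]

theorem half_le_weight (H : SimpleGraph V) (n : ℕ) (q : ℝ) (hq0 : 0 ≤ q) (hq1 : q ≤ 1)
    (hyp : HypE n q H) (X : Finset V) (E : Finset (Sym2 V))
    (hE : ∀ e ∈ E, e ∈ H.edgeSet ∧ ∀ a ∈ e, a ∈ X) :
    (1 / 2 : ℝ) ≤ (n : ℝ) ^ X.card * q ^ E.card := by
  classical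
  let F' : SimpleGraph X :=
    (SimpleGraph.fromEdgeSet (E : Set (Sym2 V))).comap Subtype.val
  have hadj : ∀ a b : X, F'.Adj a b ↔ s(a.1, b.1) ∈ E ∧ a.1 ≠ b.1 := by
    intro a b
    simp [F']
  have hcont : F' ⊑ H := by
    refine ⟨⟨⟨Subtype.val, ?_⟩, Subtype.val_injective⟩⟩
    intro a b h
    exact (hE _ ((hadj a b).1 h).1).1
  have h := hyp X F' hcont
  set cc := (⊤ : SimpleGraph (Fin n)).copyCount F' with hcc
  have h1 : cc * Nat.card (F' ≃g F') = n.descFactorial X.card := by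
    rw [hcc, ← card_copy_eq, card_copy_top, Nat.card_eq_fintype_card, Fintype.card_coe]
  have h2 : cc ≤ n ^ X.card := by
    calc cc = cc * 1 := (mul_one _).symm
      _ ≤ cc * Nat.card (F' ≃g F') := Nat.mul_le_mul_left _ (card_aut_pos F')
      _ = n.descFactorial X.card := h1
      _ ≤ n ^ X.card := Nat.descFactorial_le_pow _ _
  have h3 : E.card ≤ Nat.card F'.edgeSet := by
    rw [Nat.card_eq_fintype_card, ← SimpleGraph.edgeFinset_card]
    refine le_trans (Finset.card_le_card ?_) (Finset.card_image_le (f := Sym2.map Subtype.val))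
    intro e he
    have hx := (hE e he).2
    have hH := (hE e he).1
    induction e using Sym2.ind with
    | _ a b =>
      have ha := hx a (Sym2.mem_mk_left _ _)
      have hb := hx b (Sym2.mem_mk_right _ _)
      refine Finset.mem_image.2 ⟨s(⟨a, ha⟩, ⟨b, hb⟩), ?_, rfl⟩
      rw [SimpleGraph.mem_edgeFinset, SimpleGraph.mem_edgeSet, hadj]
      exact ⟨he, (H.mem_edgeSet.1 hH).ne⟩
  have h4 : q ^ Nat.card F'.edgeSet ≤ q ^ E.card := pow_le_pow_of_le_one hq0 hq1 h3
  have h5 : (cc : ℝ) ≤ (n : ℝ) ^ X.card := by exact_mod_cast h2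
  calc (1 / 2 : ℝ) ≤ (cc : ℝ) * q ^ Nat.card F'.edgeSet := h
    _ ≤ (n : ℝ) ^ X.card * q ^ E.card :=
        mul_le_mul h5 h4 (by positivity) (by positivity)

end Vale.Agent.Lib.P064.Log
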