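import Vale.Agent.Lib.P064.Log.Union
import Vale.Agent.Lib.P064.Log.Weight

/-!
# P064 / Log: a rigid pair has at most `Λ^{|P|}` extensions, `Λ = ⌊log₄ (2n)⌋`

Blueprint for `exists_bdry_small`. Let `𝒜 = Ext F H S P ρ`, `X = uV F S P ρ 𝒜`, `E = uE F S P 𝒜`, `∂ = |bdry F S P|`.
`union_weight` (with `N = n`, `Q = 4 q`) gives `n^{|X|} (4q)^{|E|} ≤ n^∂` and `half_le_weight` (with `uE_subset`)
gives `1/2 ≤ n^{|X|} q^{|E|}`; so `4^{|E|} ≤ 2 n^∂`. If `∂ = 0` then `|E| = 0`, so `n^{|X|} ≤ 1`, which is impossible as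
`X ≠ ∅` (`P` and `𝒜` are nonempty) and `n ≥ 2`. So `∂ ≥ 1`. For `y` in the boundary let
`E_y = {e ∈ E : ρ y ∈ e}`. These sets are pairwise disjoint: an edge of `E` is `s(φ a, φ b)` with `φ ∈ 𝒜`, `a ∈ P`,
`b ∈ S`, and `φ a ≠ ρ y = φ y` for every `y ∈ S \ P`, so at most one endpoint is the image of a boundary vertex,
and `ρ = φ` is injective on the boundary. Hence `∑_y |E_y| ≤ |E|`; take `y` with `|E_y|` minimum, `d = |E_y|`:
`∂ d ≤ |E|`, `4^{∂ d} ≤ 2 n^∂ ≤ (2n)^∂`, `4^d ≤ 2n`, `d ≤ Nat.log 4 (2n)`.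

Blueprint for `rigid_bound` (induction on `k = |P|`). `k = 0`: `ext_empty_subset`. Step: if there is no
extension both claims are trivial. Otherwise take `y` from `exists_bdry_small` and `z ∈ P` with `F.Adj y z`
(`mem_bdry`). For every extension `φ` the edge `s(ρ y, φ z) = s(φ y, φ z)` is in `E_y`, and `u ↦ s(ρ y, u)` is injective,
so `φ z` takes at most `Λ` values; use `card_ext_le_of_values`, `rigid_mono` and the induction hypothesis
for `P.erase z`. For the second claim use `card_tch_erase_lt` and `mem_ext_erase`.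
-/

namespace Vale.Agent.Lib.P064.Log

open SimpleGraph

variable {W V : Type} [Fintype W] [DecidableEq W] [Fintype V] [DecidableEq V]

/-- if the image of an edge that touches `P` contains the image of a root `y`, the edge contains `y` -/
theorem mem_of_root_mem_map (F : SimpleGraph W) (H : SimpleGraph V) (S P : Finset W) (ρ φ : W → V)
    (hφ : φ ∈ Ext F H S P ρ) (e₀ : Sym2 W) (he₀ : e₀ ∈ tch F S P) (y : W) (hyS : y ∈ S)
    (hyP : y ∉ P) (h : ρ y ∈ Sym2.map φ e₀) : y ∈ e₀ := by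
  rw [mem_ext] at hφ
  rw [mem_tch] at he₀
  obtain ⟨a, ha, hay⟩ := Sym2.mem_map.1 h
  have h1 : φ a = φ y := by rw [hay, hφ.2 y hyP]
  have h2 : a = y := hφ.1.1 (he₀.2.1 a ha) hyS h1
  rwa [← h2]

theorem exists_bdry_small (F : SimpleGraph W) (H : SimpleGraph V) (n : ℕ) (hn : 2 ≤ n) (q : ℝ)
    (hq0 : 0 < q) (hq4 : 4 * q ≤ 1) (hyp : HypE n q H) (S P : Finset W) (hPS : P ⊆ S)
    (hP : P.Nonempty) (hr : Rigid F n (4 * q) S P) (ρ : W → V)
    (hne : (Ext F H S P ρ).Nonempty) :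
    ∃ y ∈ bdry F S P,
      ((uE F S P (Ext F H S P ρ)).filter fun e => ρ y ∈ e).card ≤ Nat.log 4 (2 * n) := by
  classical
  set 𝒜 := Ext F H S P ρ with h𝒜
  set X := uV F S P ρ 𝒜 with hX
  set E := uE F S P 𝒜 with hE
  set d₀ := (bdry F S P).card with hd₀
  have hn1 : (1 : ℝ) ≤ n := by exact_mod_cast (by omega : 1 ≤ n)
  have hn0 : (0 : ℝ) < n := by linarith
  have h1 : (n : ℝ) ^ X.card * (4 * q) ^ E.card ≤ (n : ℝ) ^ d₀ :=
    union_weight F H n (4 * q) hn1 (by positivity) hq4 S P hPS hr ρ 𝒜 (Finset.Subset.refl _)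
  have h2 : (1 / 2 : ℝ) ≤ (n : ℝ) ^ X.card * q ^ E.card :=
    half_le_weight H n q hq0.le (by linarith) hyp X E
      (uE_subset F H S P ρ 𝒜 (Finset.Subset.refl _))
  have h3 : (4 : ℝ) ^ E.card ≤ 2 * (n : ℝ) ^ d₀ := by
    have h4 : (4 : ℝ) ^ E.card * ((n : ℝ) ^ X.card * q ^ E.card) ≤ (n : ℝ) ^ d₀ := by
      calc (4 : ℝ) ^ E.card * ((n : ℝ) ^ X.card * q ^ E.card)
          = (n : ℝ) ^ X.card * (4 * q) ^ E.card := by rw [mul_pow]; ring
        _ ≤ _ := h1
    have h5 : (4 : ℝ) ^ E.card * (1 / 2) ≤ (4 : ℝ) ^ E.card * ((n : ℝ) ^ X.card * q ^ E.card) :=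
      mul_le_mul_of_nonneg_left h2 (by positivity)
    linarith
  have h3' : 4 ^ E.card ≤ 2 * n ^ d₀ := by exact_mod_cast h3
  -- the boundary is nonempty
  have hd : 1 ≤ d₀ := by
    by_contra hlt
    have hd0 : d₀ = 0 := by omega
    rw [hd0] at h3' h1
    have hE0 : E.card = 0 := by
      by_contra hE1
      have : 4 ^ 1 ≤ 4 ^ E.card := Nat.pow_le_pow_right (by norm_num) (by omega)
      rw [pow_zero] at h3'
      omega
    rw [hE0] at h1
    obtain ⟨φ, hφ⟩ := hne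
    obtain ⟨x, hx⟩ := hP
    have hxX : φ x ∈ X := by
      rw [hX, uV]
      apply Finset.mem_union_right
      exact Finset.mem_biUnion.2 ⟨φ, hφ, Finset.mem_image_of_mem _ hx⟩
    have hX1 : 1 ≤ X.card := Finset.card_pos.2 ⟨_, hxX⟩
    have h6 : (n : ℝ) ^ 1 ≤ (n : ℝ) ^ X.card := pow_le_pow_right₀ hn1 hX1
    have h7 : (2 : ℝ) ≤ n := by exact_mod_cast hn
    simp only [pow_zero, mul_one, pow_one] at h1 h6
    linarith
  have hbne : (bdry F S P).Nonempty := Finset.card_pos.1 (by omega)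
  -- the sets `E_y` are pairwise disjoint
  have hdisj : ∀ y ∈ bdry F S P, ∀ y' ∈ bdry F S P, y ≠ y' →
      Disjoint (E.filter fun e => ρ y ∈ e) (E.filter fun e => ρ y' ∈ e) := by
    intro y hy y' hy' hyy'
    rw [Finset.disjoint_left]
    intro e he he'
    rw [Finset.mem_filter] at he he'
    obtain ⟨heE, hye⟩ := he
    obtain ⟨-, hye'⟩ := he'
    rw [hE, uE, Finset.mem_biUnion] at heE
    obtain ⟨φ, hφ, heφ⟩ := heE
    obtain ⟨e₀, he₀, rfl⟩ := Finset.mem_image.1 heφ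
    rw [mem_bdry] at hy hy'
    have m1 := mem_of_root_mem_map F H S P ρ φ hφ e₀ he₀ y hy.1.1 hy.1.2 hye
    have m2 := mem_of_root_mem_map F H S P ρ φ hφ e₀ he₀ y' hy'.1.1 hy'.1.2 hye'
    have h8 : e₀ = s(y, y') := (Sym2.mem_and_mem_iff hyy').1 ⟨m1, m2⟩
    rw [mem_tch] at he₀
    obtain ⟨a, ha, haP⟩ := he₀.2.2
    rw [h8, Sym2.mem_iff] at ha
    rcases ha with rfl | rfl
    · exact hy.1.2 haP
    · exact hy'.1.2 haP
  have hsum : ∑ y ∈ bdry F S P, (E.filter fun e => ρ y ∈ e).card ≤ E.card := by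
    rw [← Finset.card_biUnion hdisj]
    apply Finset.card_le_card
    intro e he
    obtain ⟨y, -, hy⟩ := Finset.mem_biUnion.1 he
    exact (Finset.mem_filter.1 hy).1
  obtain ⟨y, hy, hmin⟩ := Finset.exists_min_image (bdry F S P)
    (fun y => (E.filter fun e => ρ y ∈ e).card) hbne
  refine ⟨y, hy, ?_⟩
  set d := (E.filter fun e => ρ y ∈ e).card with hd'
  have h9 : d₀ * d ≤ E.card := by
    calc d₀ * d = ∑ _y ∈ bdry F S P, d := by rw [Finset.sum_const, smul_eq_mul]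
      _ ≤ ∑ y ∈ bdry F S P, (E.filter fun e => ρ y ∈ e).card := Finset.sum_le_sum hmin
      _ ≤ E.card := hsum
  have h10 : (4 ^ d) ^ d₀ ≤ (2 * n) ^ d₀ := by
    calc (4 ^ d) ^ d₀ = 4 ^ (d₀ * d) := by rw [← pow_mul, mul_comm]
      _ ≤ 4 ^ E.card := Nat.pow_le_pow_right (by norm_num) h9
      _ ≤ 2 * n ^ d₀ := h3'
      _ ≤ 2 ^ d₀ * n ^ d₀ := by
          apply Nat.mul_le_mul_right
          calc 2 = 2 ^ 1 := by norm_num
            _ ≤ 2 ^ d₀ := Nat.pow_le_pow_right (by norm_num) hd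
      _ = (2 * n) ^ d₀ := by rw [mul_pow]
  have h11 : 4 ^ d ≤ 2 * n := (Nat.pow_le_pow_iff_left (by omega)).1 h10
  exact Nat.le_log_of_pow_le (by norm_num) h11

theorem rigid_bound (F : SimpleGraph W) (H : SimpleGraph V) (n : ℕ) (hn : 2 ≤ n) (q : ℝ)
    (hq0 : 0 < q) (hq4 : 4 * q ≤ 1) (hyp : HypE n q H) (k : ℕ) :
    ∀ (S P : Finset W), P.card = k → P ⊆ S → Rigid F n (4 * q) S P → ∀ ρ : W → V,
      (Ext F H S P ρ).card ≤ Nat.log 4 (2 * n) ^ k ∧
        ((Ext F H S P ρ).Nonempty → k ≤ (tch F S P).card) := by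
  classical
  induction k with
  | zero =>
    intro S P hk _ _ ρ
    have hP : P = ∅ := Finset.card_eq_zero.1 hk
    subst hP
    refine ⟨?_, fun _ => Nat.zero_le _⟩
    calc (Ext F H S ∅ ρ).card ≤ ({ρ} : Finset (W → V)).card :=
          Finset.card_le_card (ext_empty_subset F H S ρ)
      _ = 1 := Finset.card_singleton _
      _ = Nat.log 4 (2 * n) ^ 0 := (pow_zero _).symm
  | succ k ih =>
    intro S P hk hPS hr ρ
    by_cases hne : (Ext F H S P ρ).Nonempty
    · have hP : P.Nonempty := Finset.card_pos.1 (by omega)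
      obtain ⟨y, hy, hsmall⟩ := exists_bdry_small F H n hn q hq0 hq4 hyp S P hPS hP hr ρ hne
      rw [mem_bdry] at hy
      obtain ⟨⟨hyS, hyP⟩, z, hz, hyz⟩ := hy
      have hzS : z ∈ S := hPS hz
      have hcard : (P.erase z).card = k := by rw [Finset.card_erase_of_mem hz]; omega
      have hsub : P.erase z ⊆ S := (Finset.erase_subset _ _).trans hPS
      have hr' : Rigid F n (4 * q) S (P.erase z) := rigid_mono F n (4 * q) S (Finset.erase_subset _ _) hr
      set B : Finset V := (Ext F H S P ρ).image fun φ => φ z with hB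
      have hBcard : B.card ≤ Nat.log 4 (2 * n) := by
        refine le_trans ?_ hsmall
        apply Finset.card_le_card_of_injOn (fun u => s(ρ y, u))
        · intro u hu
          rw [Finset.mem_coe, hB] at hu
          obtain ⟨φ, hφ, rfl⟩ := Finset.mem_image.1 hu
          rw [Finset.mem_coe, Finset.mem_filter]
          refine ⟨?_, Sym2.mem_mk_left _ _⟩
          rw [uE, Finset.mem_biUnion]
          refine ⟨φ, hφ, Finset.mem_image.2 ⟨s(y, z), ?_, ?_⟩⟩
          · rw [mk_mem_tch]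
            exact ⟨hyz, ⟨hyS, hzS⟩, Or.inr hz⟩
          · rw [Sym2.map_mk, ((mem_ext F H S P ρ φ).1 hφ).2 y hyP]
        · intro u _ u' _ huu'
          exact Sym2.congr_right.1 huu'
      refine ⟨?_, fun _ => ?_⟩
      · calc (Ext F H S P ρ).card ≤ B.card * Nat.log 4 (2 * n) ^ k :=
              card_ext_le_of_values F H S P ρ z B
                (fun φ hφ => Finset.mem_image_of_mem _ hφ) _
                (fun ρ' => (ih S (P.erase z) hcard hsub hr' ρ').1)
          _ ≤ Nat.log 4 (2 * n) * Nat.log 4 (2 * n) ^ k := Nat.mul_le_mul_right _ hBcard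
          _ = Nat.log 4 (2 * n) ^ (k + 1) := by rw [pow_succ, mul_comm]
      · obtain ⟨φ, hφ⟩ := hne
        have h1 := mem_ext_erase F H S P ρ φ hφ z
        have h2 := (ih S (P.erase z) hcard hsub hr' _).2 ⟨φ, h1⟩
        have h3 := card_tch_erase_lt F S P y z hz hzS hyS hyP hyz
        omega
    · rw [Finset.not_nonempty_iff_eq_empty] at hne
      rw [hne]
      exact ⟨by simp, fun h => absurd h (by simp)⟩

end Vale.Agent.Lib.P064.Log
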