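import Vale.Agent.Lib.P064.Log.Basic

/-!
# P064 / Log: the union of a family of extensions of a rigid pair has small weight

`uV` and `uE` are the vertex set and the edge set of the union of the images of the edges that touch `P`
under the maps of the family `𝒜`, together with the images of the boundary vertices.

Blueprint for `union_weight` (`Finset.induction_on 𝒜`). For `𝒜 = ∅`: `uV` is the image of the boundary, of
cardinality `≤ |bdry|`, and `uE = ∅`. Step `insert φ 𝒜`: let `X = uV .. 𝒜`, `E = uE .. 𝒜` and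
`Y = {x ∈ P : φ x ∉ X}`. Then `uV .. (insert φ 𝒜) = X ∪ φ(P)` has exactly `|X| + |Y|` elements (`φ` is injective
on `P`). The images under `φ` of the edges in `tch F S Y ⊆ tch F S P` are pairwise different (`φ` is injective on
`S`) and none of them is in `E`, since each has an endpoint outside `X` whereas the edges in `E` have both
endpoints in `X` (`uE_subset`). So `|uE .. (insert φ 𝒜)| ≥ |E| + |tch F S Y|`, and as `0 ≤ Q ≤ 1` and `1 ≤ N`
`N^{|X|+|Y|} Q^{|E'|} ≤ N^{|X|} Q^{|E|} · (N^{|Y|} Q^{|tch F S Y|}) ≤ N^{|X|} Q^{|E|}` by rigidity.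
-/

namespace Vale.Agent.Lib.P064.Log

open SimpleGraph

variable {W V : Type} [Fintype W] [DecidableEq W] [Fintype V] [DecidableEq V]

/-- vertices of the union -/
noncomputable def uV (F : SimpleGraph W) (S P : Finset W) (ρ : W → V) (𝒜 : Finset (W → V)) :
    Finset V :=
  (bdry F S P).image ρ ∪ 𝒜.biUnion fun φ => P.image φ

/-- edges of the union -/
noncomputable def uE (F : SimpleGraph W) (S P : Finset W) (𝒜 : Finset (W → V)) :
    Finset (Sym2 V) :=
  𝒜.biUnion fun φ => (tch F S P).image (Sym2.map φ)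

/-- the edges of the union are edges of `H` inside `uV` -/
theorem uE_subset (F : SimpleGraph W) (H : SimpleGraph V) (S P : Finset W) (ρ : W → V)
    (𝒜 : Finset (W → V)) (h𝒜 : 𝒜 ⊆ Ext F H S P ρ) :
    ∀ e ∈ uE F S P 𝒜, e ∈ H.edgeSet ∧ ∀ a ∈ e, a ∈ uV F S P ρ 𝒜 := by
  classical
  intro e he
  rw [uE, Finset.mem_biUnion] at he
  obtain ⟨φ, hφ, he⟩ := he
  obtain ⟨e₀, he₀, rfl⟩ := Finset.mem_image.1 he
  have hφE := (mem_ext F H S P ρ φ).1 (h𝒜 hφ)
  induction e₀ using Sym2.ind with
  | _ a b =>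
    rw [mk_mem_tch] at he₀
    obtain ⟨hab, ⟨haS, hbS⟩, hP⟩ := he₀
    have key : ∀ c c' : W, c ∈ S → F.Adj c c' → (c ∈ P ∨ c' ∈ P) → φ c ∈ uV F S P ρ 𝒜 := by
      intro c c' hcS hcc' hor
      rw [uV]
      by_cases hc : c ∈ P
      · apply Finset.mem_union_right
        exact Finset.mem_biUnion.2 ⟨φ, hφ, Finset.mem_image_of_mem _ hc⟩
      · apply Finset.mem_union_left
        rw [hφE.2 c hc]
        apply Finset.mem_image_of_mem
        rw [mem_bdry]
        exact ⟨⟨hcS, hc⟩, c', hor.resolve_left hc, hcc'⟩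
    rw [Sym2.map_mk]
    refine ⟨hφE.1.2 a haS b hbS hab, ?_⟩
    intro x hx
    rw [Sym2.mem_iff] at hx
    rcases hx with rfl | rfl
    · exact key a b haS hab hP
    · exact key b a hbS hab.symm hP.symm

omit [Fintype W] [DecidableEq W] [Fintype V] [DecidableEq V] in
theorem map_injOn_of_injOn (S : Finset W) (φ : W → V) (hφ : Set.InjOn φ S) (e₁ e₂ : Sym2 W)
    (h₁ : ∀ a ∈ e₁, a ∈ S) (h₂ : ∀ a ∈ e₂, a ∈ S) (h : Sym2.map φ e₁ = Sym2.map φ e₂) :
    e₁ = e₂ := by
  induction e₁ using Sym2.ind with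
  | _ a b =>
    induction e₂ using Sym2.ind with
    | _ c d =>
      have ha := h₁ a (Sym2.mem_mk_left _ _)
      have hb := h₁ b (Sym2.mem_mk_right _ _)
      have hc := h₂ c (Sym2.mem_mk_left _ _)
      have hd := h₂ d (Sym2.mem_mk_right _ _)
      rw [Sym2.map_mk, Sym2.map_mk, Sym2.eq_iff] at h
      rw [Sym2.eq_iff]
      rcases h with ⟨h1, h2⟩ | ⟨h1, h2⟩
      · exact Or.inl ⟨hφ ha hc h1, hφ hb hd h2⟩
      · exact Or.inr ⟨hφ ha hd h1, hφ hb hc h2⟩

theorem union_weight (F : SimpleGraph W) (H : SimpleGraph V) (N Q : ℝ) (hN : 1 ≤ N) (hQ0 : 0 ≤ Q)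
    (hQ1 : Q ≤ 1) (S P : Finset W) (hPS : P ⊆ S) (hr : Rigid F N Q S P) (ρ : W → V)
    (𝒜 : Finset (W → V)) (h𝒜 : 𝒜 ⊆ Ext F H S P ρ) :
    N ^ (uV F S P ρ 𝒜).card * Q ^ (uE F S P 𝒜).card ≤ N ^ (bdry F S P).card := by
  classical
  induction 𝒜 using Finset.induction_on with
  | empty =>
    have h1 : uE F S P (∅ : Finset (W → V)) = ∅ := by simp [uE]
    have h2 : (uV F S P ρ ∅).card ≤ (bdry F S P).card := by
      simp only [uV, Finset.biUnion_empty, Finset.union_empty]
      exact Finset.card_image_le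
    rw [h1, Finset.card_empty, pow_zero, mul_one]
    exact pow_le_pow_right₀ hN h2
  | insert φ 𝒜 hφ𝒜 ih =>
    have h𝒜' : 𝒜 ⊆ Ext F H S P ρ := (Finset.subset_insert _ _).trans h𝒜
    have ih' := ih h𝒜'
    have hφE := (mem_ext F H S P ρ φ).1 (h𝒜 (Finset.mem_insert_self _ _))
    set X := uV F S P ρ 𝒜 with hX
    set E := uE F S P 𝒜 with hE
    set Y := P.filter fun x => φ x ∉ X with hY
    have hYP : Y ⊆ P := Finset.filter_subset _ _
    have hX' : (uV F S P ρ (insert φ 𝒜)).card ≤ X.card + Y.card := by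
      have hsub : uV F S P ρ (insert φ 𝒜) ⊆ X ∪ Y.image φ := by
        intro v hv
        rw [uV, Finset.biUnion_insert] at hv
        rcases Finset.mem_union.1 hv with hv | hv
        · exact Finset.mem_union_left _ (by rw [hX, uV]; exact Finset.mem_union_left _ hv)
        · rcases Finset.mem_union.1 hv with hv | hv
          · obtain ⟨x, hx, rfl⟩ := Finset.mem_image.1 hv
            by_cases hxX : φ x ∈ X
            · exact Finset.mem_union_left _ hxX
            · exact Finset.mem_union_right _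
                (Finset.mem_image_of_mem _ (Finset.mem_filter.2 ⟨hx, hxX⟩))
          · exact Finset.mem_union_left _ (by rw [hX, uV]; exact Finset.mem_union_right _ hv)
      calc (uV F S P ρ (insert φ 𝒜)).card ≤ (X ∪ Y.image φ).card := Finset.card_le_card hsub
        _ ≤ X.card + (Y.image φ).card := Finset.card_union_le _ _
        _ ≤ X.card + Y.card := Nat.add_le_add_left Finset.card_image_le _
    have hE' : E.card + (tch F S Y).card ≤ (uE F S P (insert φ 𝒜)).card := by
      have hsub : E ∪ (tch F S Y).image (Sym2.map φ) ⊆ uE F S P (insert φ 𝒜) := by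
        intro e he
        rw [uE, Finset.biUnion_insert]
        rcases Finset.mem_union.1 he with he | he
        · exact Finset.mem_union_right _ he
        · apply Finset.mem_union_left
          obtain ⟨e₀, he₀, rfl⟩ := Finset.mem_image.1 he
          exact Finset.mem_image_of_mem _ (tch_mono_right F S hYP he₀)
      have hdisj : Disjoint E ((tch F S Y).image (Sym2.map φ)) := by
        rw [Finset.disjoint_left]
        intro e heE he
        obtain ⟨e₀, he₀, rfl⟩ := Finset.mem_image.1 he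
        obtain ⟨a, ha, haY⟩ := ((mem_tch F S Y e₀).1 he₀).2.2
        have h1 : φ a ∈ X :=
          (uE_subset F H S P ρ 𝒜 h𝒜' _ heE).2 (φ a) (Sym2.mem_map.2 ⟨a, ha, rfl⟩)
        exact (Finset.mem_filter.1 haY).2 h1
      have hcard : ((tch F S Y).image (Sym2.map φ)).card = (tch F S Y).card := by
        apply Finset.card_image_of_injOn
        intro e₁ h₁ e₂ h₂ h
        exact map_injOn_of_injOn S φ hφE.1.1 e₁ e₂ ((mem_tch F S Y e₁).1 h₁).2.1
          ((mem_tch F S Y e₂).1 h₂).2.1 h
      calc E.card + (tch F S Y).card = (E ∪ (tch F S Y).image (Sym2.map φ)).card := by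
            rw [Finset.card_union_of_disjoint hdisj, hcard]
        _ ≤ _ := Finset.card_le_card hsub
    have hN0 : 0 ≤ N := by linarith
    calc N ^ (uV F S P ρ (insert φ 𝒜)).card * Q ^ (uE F S P (insert φ 𝒜)).card
        ≤ N ^ (X.card + Y.card) * Q ^ (E.card + (tch F S Y).card) := by
          apply mul_le_mul (pow_le_pow_right₀ hN hX') (pow_le_pow_of_le_one hQ0 hQ1 hE')
            (by positivity) (by positivity)
      _ = (N ^ X.card * Q ^ E.card) * (N ^ Y.card * Q ^ (tch F S Y).card) := by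
          rw [pow_add, pow_add]; ring
      _ ≤ (N ^ X.card * Q ^ E.card) * 1 :=
          mul_le_mul_of_nonneg_left (hr Y hYP) (by positivity)
      _ ≤ N ^ (bdry F S P).card := by rw [mul_one]; exact ih'

end Vale.Agent.Lib.P064.Log
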